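import Vale.Agent.P032.H180.Viol
import Vale.Agent.P032.H383.Contact

/-!
# P032, X, the ring: a full two-pair point

`z` on `S(x)` a two-pair point with `(T x)ᶜ ⊆ T z` and `f z ⊆ (T x)ᶜ` : every point `y` of `S(x)`
with `dist y z = 1` is not full, and `f z ⊆ T y`, `T y \ T x ⊆ f z`, or `y` is a swap vertex with
the apex `z`.
-/

open Set Filter Topology Metric

noncomputable section

namespace Vale.Agent.P032.Six

open Vale.Agent.P032.S5 Vale.Agent.P032.Carr Vale.Agent.P032.S5.H767 Vale.Agent.P032.H961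
  Vale.Agent.P032.H227
open Vale.Agent.P032.S5.H57 (not_line compl_sub)

variable {U : Fin 6 → Set ℂ} {T : ℂ → Set (Fin 6)} {f : ℂ → Set (Fin 6)} {Z : Set ℂ} {c : ℂ}
  {R δ₀ : ℝ} {x y z : ℂ}

/-- a full two-pair point `z` and a linked two-pair point `y` (STAY) -/
theorem full_stay180 (h : Irr U T) (hx3 : (T x).ncard = 3) {a b p q g : Fin 6}
    (hnd : [a, b, p, q, g].Nodup) (hz : DPt T z a b p q) (hy : DPt T y a p g b)
    (hfy : f y = {g, b}) (c2 : z ∈ closure (Ex T y {a, p})) (hp : p ∉ T x) (hq : q ∉ T x)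
    (hfull : (T x)ᶜ ⊆ T z) (h1 : dist z x = 1) (h2 : dist y x = 1) (h3 : dist y z = 1) :
    ¬ (T x)ᶜ ⊆ T y ∧ SwV180 T f x y z := by
  simp only [List.nodup_cons, List.mem_cons, List.not_mem_nil, or_false, not_or, List.nodup_nil,
    and_true, not_false_eq_true] at hnd
  obtain ⟨⟨hab, hap, haq, hag⟩, ⟨hbp, hbq, hbg⟩, ⟨hpq, hpg⟩, hqg⟩ := hnd
  have hqy : q ∉ T y := by
    rw [hy.pal]
    simp only [mem_insert_iff, mem_singleton_iff, not_or]
    exact ⟨Ne.symm haq, Ne.symm hpq, hqg, Ne.symm hbq⟩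
  have hgz : g ∉ T z := by
    rw [hz.pal]
    simp only [mem_insert_iff, mem_singleton_iff, not_or]
    exact ⟨Ne.symm hag, Ne.symm hbg, Ne.symm hpg, Ne.symm hqg⟩
  have hgx : g ∈ T x := by
    by_contra hg
    exact hgz (hfull hg)
  have hc3 : ((T x)ᶜ).ncard = 3 := by rw [Set.ncard_compl, hx3]; simp
  refine ⟨fun hs => hqy (hs hq), ?_⟩
  by_cases hbx : b ∈ T x
  · have hax : a ∉ T x := by
      intro hax
      have h5 : (T x)ᶜ ⊆ {p, q} := by
        intro i hi
        have h6 := hfull hi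
        rw [hz.pal] at h6
        rcases h6 with h6 | h6 | h6 | h6
        · exact absurd hax (h6 ▸ hi)
        · exact absurd hbx (h6 ▸ hi)
        · exact Or.inl h6
        · exact Or.inr h6
      have h6 := Set.ncard_le_ncard h5 (Set.toFinite _)
      rw [hc3, Set.ncard_pair hpq] at h6
      omega
    refine ⟨g, b, a, p, hy.swap, hfy, hgx, hbx, hax, hp, ?_, ?_, c2⟩
    · rw [hz.pal]; simp
    · rw [hz.pal]; simp
  · have hax : a ∈ T x := by
      by_contra hax
      have h5 : ({a, b, p, q} : Set (Fin 6)) ⊆ (T x)ᶜ := by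
        rintro i (rfl | rfl | rfl | rfl) <;> assumption
      have h6 := Set.ncard_le_ncard h5 (Set.toFinite _)
      rw [← hz.pal, hc3, hz.ncard] at h6
      omega
    exfalso
    have hy' : DPt T y p a b g := hy.swap12.swap34
    have hpz : p ∈ T z := by rw [hz.pal]; simp
    have hbz : b ∈ T z := by rw [hz.pal]; simp
    refine mixed180 h (y := y) (z := z) hy' (by rw [dist_comm]; exact h2)
      (by rw [dist_comm]; exact h3) (by rw [dist_comm]; exact h1) hx3.le hax hgx hpz ?_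
    filter_upwards [mem_nhdsWithin_of_mem_nhds (h.nhd y), self_mem_nhdsWithin] with w g1 g2
    by_contra hcon
    push Not at hcon
    have g3 : T w ⊆ {p, b} := by
      intro i hi
      have g4 := g1 hi
      rw [hy'.pal] at g4
      rcases g4 with g4 | g4 | g4 | g4
      · exact Or.inl g4
      · exact absurd (g4 ▸ hi) hcon.1
      · exact Or.inr g4
      · rw [mem_singleton_iff] at g4
        exact absurd (g4 ▸ hi) hcon.2
    have g4 : T w ⊆ T z := by
      intro i hi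
      rcases g3 hi with g5 | g5
      · exact g5 ▸ hpz
      · rw [mem_singleton_iff] at g5
        exact g5 ▸ hbz
    have g2' : dist w z = 1 := g2
    obtain ⟨e, -, heV, hloc, hew, -, -⟩ := h.arc_of_sub g2' g4 univ_mem
    rcases h.twoPairs hz e heV hloc (hew.trans g4) with g5 | g5
    · exact hcon.1 (hew (by rw [g5]; simp))
    · have g6 : q ∈ T w := hew (by rw [g5]; simp)
      rcases g3 g6 with g7 | g7
      · exact hpq g7.symm
      · rw [mem_singleton_iff] at g7
        exact hbq g7.symm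

/-- a full two-pair point `z` and a point `y` with at most three colours -/
theorem full_three180 (h : Irr U T) (hx3 : (T x).ncard = 3) {a b p q : Fin 6}
    (hz : DPt T z a b p q) (hp : p ∉ T x) (hq : q ∉ T x) (hfull : (T x)ᶜ ⊆ T z)
    (h1 : dist z x = 1) (h2 : dist y x = 1) (h3 : dist y z = 1) (hy3 : (T y).ncard ≤ 3)
    (hfy : ¬ (T x)ᶜ ⊆ T y) : ({p, q} : Set (Fin 6)) ⊆ T y ∧ T y \ T x ⊆ {p, q} := by
  have hc3 : ((T x)ᶜ).ncard = 3 := by rw [Set.ncard_compl, hx3]; simp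
  -- names : `r` in `T x`, `s` not
  obtain ⟨r, s, hz', hr, hs⟩ : ∃ r s : Fin 6, DPt T z r s p q ∧ r ∈ T x ∧ s ∉ T x := by
    by_cases hax : a ∈ T x
    · refine ⟨a, b, hz, hax, fun hbx => ?_⟩
      have h5 : (T x)ᶜ ⊆ {p, q} := by
        intro i hi
        have h6 := hfull hi
        rw [hz.pal] at h6
        rcases h6 with h6 | h6 | h6 | h6
        · exact absurd hax (h6 ▸ hi)
        · exact absurd hbx (h6 ▸ hi)
        · exact Or.inl h6
        · exact Or.inr h6
      have h6 := Set.ncard_le_ncard h5 (Set.toFinite _)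
      rw [hc3, Set.ncard_pair hz.cd] at h6
      omega
    · refine ⟨b, a, hz.swap12, ?_, hax⟩
      by_contra hbx
      have h5 : ({a, b, p, q} : Set (Fin 6)) ⊆ (T x)ᶜ := by
        rintro i (rfl | rfl | rfl | rfl) <;> assumption
      have h6 := Set.ncard_le_ncard h5 (Set.toFinite _)
      rw [← hz.pal, hc3, hz.ncard] at h6
      omega
  have hcx : (T x)ᶜ = {s, p, q} := compl_sub hx3 hs hp hq hz'.bc hz'.bd hz'.cd
  -- the free colours
  obtain ⟨e, e', hee, hex⟩ : ∃ e e' : Fin 6, e ≠ e' ∧ T x \ {r} = {e, e'} := by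
    have h5 : (T x \ {r}).ncard = 2 := by
      rw [Set.ncard_sdiff_singleton_of_mem hr, hx3]
    obtain ⟨e, e', h6, h7⟩ := Set.ncard_eq_two.1 h5
    exact ⟨e, e', h6, h7⟩
  have he : e ∈ T x ∧ e ≠ r := by
    have : e ∈ T x \ {r} := by rw [hex]; simp
    exact ⟨this.1, this.2⟩
  have he' : e' ∈ T x ∧ e' ≠ r := by
    have : e' ∈ T x \ {r} := by rw [hex]; simp
    exact ⟨this.1, this.2⟩
  have hTx : T x = {e, e', r} := by
    ext i
    simp only [mem_insert_iff, mem_singleton_iff]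
    constructor
    · intro hi
      by_cases hir : i = r
      · exact Or.inr (Or.inr hir)
      · have : i ∈ T x \ {r} := ⟨hi, hir⟩
        rw [hex] at this
        rcases this with h5 | h5
        · exact Or.inl h5
        · exact Or.inr (Or.inl h5)
    · rintro (h5 | h5 | h5)
      · exact h5 ▸ he.1
      · exact h5 ▸ he'.1
      · exact h5 ▸ hr
  have ne : ∀ {i j : Fin 6}, i ∈ T x → j ∉ T x → j ≠ i := fun hi hj hij => hj (hij ▸ hi)
  have hnd : [p, q, r, s, e, e'].Nodup := by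
    simp only [List.nodup_cons, List.mem_cons, List.not_mem_nil, or_false, not_or,
      List.nodup_nil, and_true, not_false_eq_true]
    exact ⟨⟨hz'.cd, ne hr hp, Ne.symm hz'.bc, ne he.1 hp, ne he'.1 hp⟩,
      ⟨ne hr hq, Ne.symm hz'.bd, ne he.1 hq, ne he'.1 hq⟩, ⟨Ne.symm (ne hr hs),
        Ne.symm he.2, Ne.symm he'.2⟩, ⟨ne he.1 hs, ne he'.1 hs⟩, hee⟩
  have hzx : dist z x = 1 := h1
  have hne := not_line (u := z) (v := x) (p := y) hzx h3
  have hcl := H383.contact h (V := z) (u := x) (p := y) hz'.swap hnd hTx h3 h2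
    (fun e => hne (Or.inl e)) (fun e => hne (Or.inr e)) (Or.inl hy3)
  have hpq : ({p, q} : Set (Fin 6)) ⊆ T y := by
    obtain ⟨w, hw1, hw2⟩ := ((mem_closure_iff_frequently.1 hcl).and_eventually (h.nhd y)).exists
    rw [← hw1.2]
    exact hw2
  refine ⟨hpq, ?_⟩
  rintro i ⟨hi, hix⟩
  have h5 : i ∈ (T x)ᶜ := hix
  rw [hcx] at h5
  rcases h5 with h5 | h5
  · exfalso
    apply hfy
    rw [hcx]
    rintro j (rfl | hj)
    · exact h5 ▸ hi
    · exact hpq hj
  · exact h5

/-- **A full two-pair point** -/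
theorem fullD180 (D : DSt U T Z f c R δ₀) (hw : QIW T fun _ _ => False)
    (G : GaugeI758 T (fun _ _ => False) f)
    (hS : ∀ V l name, ChI nxR802 T (fun _ _ => False) V l name → ∀ j, l j = 2)
    (h3 : (T x).ncard = 3)
    (hnc : ∀ w, dist w x = 1 → (T x)ᶜ ⊆ T w → 4 ≤ (T w).ncard ∧ f w ⊆ (T x)ᶜ)
    {a b p q : Fin 6} (hD : DPt T z a b p q) (hz : dist z x = 1) (hy : dist y x = 1)
    (hyz : dist y z = 1) (hfull : (T x)ᶜ ⊆ T z) :
    ¬ (T x)ᶜ ⊆ T y ∧ ((f z ⊆ T y ∧ T y \ T x ⊆ f z) ∨ SwV180 T f x y z) := by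
  have h := D.df.irr
  have hfz := (hnc z hz hfull).2
  obtain ⟨V, l, name, C, hV⟩ := exists_chIR hw hD
  have hl := hS V l name C
  obtain ⟨d1, d2, q0, q1, q2, q3, -, -⟩ := C.nb780 hl 0
  obtain ⟨p0, p1, p2, p3, -, -⟩ := C.nm780 hl 0
  have H := C.qf 0
  have hnd := H.nd
  have hnd' : [name 0 0, name 0 1, name 0 2, name 0 3, name 0 5].Nodup ∧
      [name 0 0, name 0 1, name 0 3, name 0 2, name 0 4].Nodup := by
    simp only [List.nodup_cons, List.mem_cons, List.not_mem_nil, or_false, not_or,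
      List.nodup_nil, and_true, not_false_eq_true] at hnd ⊢
    obtain ⟨⟨h01, h02, h03, h04, h05⟩, ⟨h12, h13, h14, h15⟩, ⟨h23, h24, h25⟩, ⟨h34, h35⟩, h45⟩ :=
      hnd
    exact ⟨⟨⟨h01, h02, h03, h05⟩, ⟨h12, h13, h15⟩, ⟨h23, h25⟩, h35⟩,
      ⟨h01, h03, h02, h04⟩, ⟨h13, h12, h14⟩, ⟨Ne.symm h23, h34⟩, h24⟩
  subst hV
  have hf0 := G.qi H
  have e1 : name 0 2 ∉ T x := hfz (by rw [hf0]; simp)
  have e2 : name 0 3 ∉ T x := hfz (by rw [hf0]; simp)
  by_cases hy4 : 4 ≤ (T y).ncard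
  · rcases H.ord y hyz hy4 with h1 | h1 | h1
    · have H1 := C.qf (0 + 1)
      have hf1 := G.qi H1
      rw [p2, p3] at hf1
      have c2 := H1.toQI0.mem2 h
      rw [p0, p1, show (0 : ℤ) + 1 - 1 = 0 by norm_num] at c2
      subst h1
      have h5 := full_stay180 (f := f) h h3 hnd'.1 H.dpt d2 hf1 c2 e1 e2 hfull hz hy hyz
      exact ⟨h5.1, Or.inr h5.2⟩
    · have H1 := C.qf (0 - 1)
      have hf1 := G.qi H1
      rw [q2, q3, Set.pair_comm] at hf1
      have c2 := H1.toQI0.mem1 h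
      rw [q0, q1, show (0 : ℤ) - 1 + 1 = 0 by norm_num] at c2
      subst h1
      have h5 := full_stay180 (f := f) h h3 hnd'.2 H.dpt.swap34 d1.swap34 hf1 c2 e2 e1 hfull
        hz hy hyz
      exact ⟨h5.1, Or.inr h5.2⟩
    · exact absurd h1 id
  · have h5 : ¬ (T x)ᶜ ⊆ T y := fun hs => hy4 (hnc y hy hs).1
    refine ⟨h5, Or.inl ?_⟩
    rw [hf0]
    exact full_three180 h h3 H.dpt e1 e2 hfull hz hy hyz (by omega) h5

end Vale.Agent.P032.Six
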