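import Vale.Agent.P032.S5.H175.FrozenHH
import Vale.Agent.P032.H460.ContVV

/-!
# P032: the circle about a plain end of a two-pair point is not frozen

`V` a two-pair point with the pairs `a, b` and `m, n`, `v` on its circle with the palette
`{m, n, g}`, `g` not a colour of `V`. If every common point of the circles about `v` and `V` has at
most three colours or both colours `a`, `b`, then the ring on the circle about `v` is not frozen.
-/

open Set Filter Topology Metric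

noncomputable section

namespace Vale.Agent.P032.H180

open Vale.Agent.P032.Six Vale.Agent.P032.H175
open Vale.Agent.P032.S5.H783 (cis_add cis_zero yy dist_yy yy_succ yy_rel dist_yy_succ
  yy_not_line three_cover yy_shift continuous_yy dist_yy_add dist_sq_lt dist_sq_gt dist_cis_sub
  norm_cis_sub_le dist_sq_ip ip_sum ip_sq_sum)
open Vale.Agent.P032.S5.H767 (sub_of_closure)
open Vale.Agent.P032.H460 (pv_of_dpt)

variable {U : Fin 6 → Set ℂ} {T : ℂ → Set (Fin 6)}

/-- the data of a frozen circle at a given time -/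
theorem frz_at180 {v : ℂ} {A : Set (Fin 6)} (hA3 : A.ncard = 3)
    (hQ2 : ∀ y, dist y v = 1 → ∃ i, i ∉ A ∧ i ∉ T y) {c d e : Fin 6}
    (hcov : ∀ i, i ∉ A ↔ i = c ∨ i = d ∨ i = e) (hcd : c ≠ d) (hde : d ≠ e) (hce : c ≠ e)
    (σ : Fin 6 → Fin 6) (hσc : σ c = d) (hσd : σ d = e) (hσe : σ e = c)
    (hfr : ∀ y, dist y v = 1 → ∀ i, i ∉ A →
      (i ∈ T y ↔ σ i ∈ T (v + cis (Real.pi / 3) * (y - v))))
    {θa θ0 : ℝ} (ha0 : θa < θ0) (ha1 : θ0 - θa ≤ 1 / 2) {m m' : Fin 6} (hm : m ∉ A)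
    (hm' : m' ∉ A) (hmm' : m' ≠ m) (hmK0 : m ∈ T (yy v θ0 0)) (hm'K : m' ∈ T (yy v θ0 0))
    (hpure0 : ∀ θ ∈ Ico θa θ0, ∀ i, i ∉ A → (i ∈ T (yy v θ 0) ↔ i = m)) :
    ∃ cc : ℕ → Fin 6, FD T v A θa θ0 cc ∧
      ((Hxs T A (yy v θ0) fun k => cc (k + 2)) ∨ (Hxs T A (yy v θ0) fun k => cc (k + 1))) := by
  -- facts on `σ`
  have hσT : ∀ i, i ∉ A → σ i ∉ A := by
    intro i hi
    rcases (hcov i).1 hi with rfl | rfl | rfl
    · rw [hσc]; exact (hcov _).2 (Or.inr (Or.inl rfl))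
    · rw [hσd]; exact (hcov _).2 (Or.inr (Or.inr rfl))
    · rw [hσe]; exact (hcov _).2 (Or.inl rfl)
  have hσ1 : ∀ i, i ∉ A → i ≠ σ i := by
    intro i hi
    rcases (hcov i).1 hi with rfl | rfl | rfl
    · rw [hσc]; exact hcd
    · rw [hσd]; exact hde
    · rw [hσe]; exact hce.symm
  have hσ2 : ∀ i, i ∉ A → i ≠ σ (σ i) := by
    intro i hi
    rcases (hcov i).1 hi with rfl | rfl | rfl
    · rw [hσc, hσd]; exact hce
    · rw [hσd, hσe]; exact hcd.symm
    · rw [hσe, hσc]; exact hde.symm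
  have hσ3 : ∀ i, i ∉ A → σ (σ (σ i)) = i := by
    intro i hi
    rcases (hcov i).1 hi with rfl | rfl | rfl
    · rw [hσc, hσd, hσe]
    · rw [hσd, hσe, hσc]
    · rw [hσe, hσc, hσd]
  have hσcov : ∀ i j, i ∉ A → j ∉ A → j = i ∨ j = σ i ∨ j = σ (σ i) := by
    intro i j hi hj
    exact covA hA3 hi (hσT i hi) (hσT _ (hσT i hi)) (hσ1 i hi) (hσ1 _ (hσT i hi))
      (hσ2 i hi) hj
  have hfr' : ∀ θ k i, i ∉ A → (i ∈ T (yy v θ k) ↔ σ i ∈ T (yy v θ (k + 1))) := by
    intro θ k i hi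
    rw [yy_succ]
    exact hfr _ (dist_yy v θ k) i hi
  -- iterates
  set cc : ℕ → Fin 6 := fun k => σ^[k] m with hcc
  have hcs : ∀ k, cc (k + 1) = σ (cc k) := fun k => Function.iterate_succ_apply' σ k m
  have hcT : ∀ k, cc k ∉ A := by
    intro k
    induction k with
    | zero => exact hm
    | succ k ih => rw [hcs]; exact hσT _ ih
  have hc1 : ∀ k, cc k ≠ cc (k + 1) := fun k => by rw [hcs]; exact hσ1 _ (hcT k)
  have hc2 : ∀ k, cc k ≠ cc (k + 2) := fun k => by
    rw [show k + 2 = k + 1 + 1 from rfl, hcs, hcs]; exact hσ2 _ (hcT k)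
  have hc3 : ∀ k, cc (k + 3) = cc k := fun k => by
    rw [show k + 3 = k + 1 + 1 + 1 from rfl, hcs, hcs, hcs]; exact hσ3 _ (hcT k)
  have hiter : ∀ θ k j, (cc j ∈ T (yy v θ 0) ↔ cc (j + k) ∈ T (yy v θ k)) := by
    intro θ k j
    induction k with
    | zero => rfl
    | succ k ih =>
      rw [ih, show j + (k + 1) = (j + k) + 1 from rfl, hcs]
      exact hfr' θ k _ (hcT _)
  have hin : ∀ k, cc k ∈ T (yy v θ0 k) := fun k => by
    have := (hiter θ0 k 0).1 hmK0
    rwa [Nat.zero_add] at this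
  have hcov3 : ∀ k, ∀ i, i ∉ A → ∃ j, i = cc (j + k) := by
    intro k i hi
    rcases hσcov (cc k) i (hcT k) hi with h5 | h5 | h5
    · exact ⟨0, by rw [h5, Nat.zero_add]⟩
    · exact ⟨1, by rw [h5, ← hcs, add_comm]⟩
    · exact ⟨2, by rw [h5, ← hcs, ← hcs]; congr 1; ring⟩
  have hmod : ∀ j, cc j = cc (j % 3) := by
    intro j
    induction j using Nat.strong_induction_on with
    | _ j ih =>
      by_cases hj : j < 3
      · rw [Nat.mod_eq_of_lt hj]
      · have e1 : j = (j - 3) + 3 := by omega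
        have h1 := ih (j - 3) (by omega)
        rw [e1, hc3, h1, Nat.add_mod_right]
  have hinj3 : ∀ i < 3, ∀ j < 3, cc i = cc j → i = j := by
    intro i hi j hj hij
    have k01 := hc1 0
    have k12 := hc1 1
    have k02 := hc2 0
    interval_cases i <;> interval_cases j <;> first | rfl | exact absurd hij (by assumption) |
      exact absurd hij.symm (by assumption)
  have hinjc : ∀ k j, (cc j = cc 0 ↔ cc (j + k) = cc k) := by
    intro k j
    constructor
    · intro h5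
      rw [hmod j, hmod 0] at h5
      have h6 := hinj3 _ (Nat.mod_lt _ (by norm_num)) _ (Nat.mod_lt _ (by norm_num)) h5
      rw [hmod (j + k), hmod k]
      congr 1
      omega
    · intro h5
      rw [hmod (j + k), hmod k] at h5
      have h6 := hinj3 _ (Nat.mod_lt _ (by norm_num)) _ (Nat.mod_lt _ (by norm_num)) h5
      rw [hmod j, hmod 0]
      congr 1
      omega
  refine ⟨cc, ⟨ha0, ha1, hcT, hc1, hc2, hc3, hin, fun k θ hθ i hi => ?_⟩, ?_⟩
  · obtain ⟨j, rfl⟩ := hcov3 k i hi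
    rw [← hiter θ k j, hpure0 θ hθ _ (hcT j)]
    exact hinjc k j
  obtain ⟨q, hq, hq'⟩ := hQ2 _ (dist_yy v θ0 0)
  -- the two cases
  rcases hσcov m m' hm hm' with h6 | h6 | h6
  · exact absurd h6 hmm'
  · left
    have hm1' : cc 1 ∈ T (yy v θ0 0) := by rw [hcs 0]; exact h6 ▸ hm'K
    have hm2' : cc 2 ∉ T (yy v θ0 0) := by
      rcases hσcov m q hm hq with h7 | h7 | h7
      · exact absurd (h7 ▸ hmK0) hq'
      · exact absurd (by rw [h7, ← h6]; exact hm'K) hq'
      · rw [show (2 : ℕ) = 1 + 1 from rfl, hcs, hcs 0]; exact h7 ▸ hq'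
    refine ⟨fun k => hcT _, fun k => hc1 _, fun k => hc2 _, fun k i hi => ?_⟩
    have e0 : cc k ∈ T (yy v θ0 k) := hin k
    have e1 : cc (k + 1) ∈ T (yy v θ0 k) := by
      have := (hiter θ0 k 1).1 hm1'
      rwa [add_comm] at this
    have e2 : cc (k + 2) ∉ T (yy v θ0 k) := by
      intro h8
      apply hm2'
      rw [hiter θ0 k 2, add_comm]; exact h8
    constructor
    · rintro h8 rfl
      exact e2 h8
    · intro h8
      rcases covA hA3 (hcT k) (hcT (k + 1)) (hcT (k + 2)) (hc1 k) (hc1 (k + 1)) (hc2 k) hi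
        with h9 | h9 | h9
      · rw [h9]; exact e0
      · rw [h9]; exact e1
      · exact absurd h9 h8
  · right
    have hm2' : cc 2 ∈ T (yy v θ0 0) := by
      rw [show (2 : ℕ) = 1 + 1 from rfl, hcs, hcs 0]; exact h6 ▸ hm'K
    have hm1' : cc 1 ∉ T (yy v θ0 0) := by
      rcases hσcov m q hm hq with h7 | h7 | h7
      · exact absurd (h7 ▸ hmK0) hq'
      · rw [hcs 0]; exact h7 ▸ hq'
      · exact absurd (by rw [h7, ← h6]; exact hm'K) hq'
    refine ⟨fun k => hcT _, fun k => hc1 _, fun k => hc2 _, fun k i hi => ?_⟩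
    have e0 : cc k ∈ T (yy v θ0 k) := hin k
    have e1 : cc (k + 2) ∈ T (yy v θ0 k) := by
      have := (hiter θ0 k 2).1 hm2'
      rwa [add_comm] at this
    have e2 : cc (k + 1) ∉ T (yy v θ0 k) := by
      intro h8
      apply hm1'
      rw [hiter θ0 k 1, add_comm]; exact h8
    constructor
    · rintro h8 rfl
      exact e2 h8
    · intro h8
      rcases covA hA3 (hcT k) (hcT (k + 1)) (hcT (k + 2)) (hc1 k) (hc1 (k + 1)) (hc2 k) hi
        with h9 | h9 | h9
      · rw [h9]; exact e0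
      · exact absurd h9 h8
      · rw [h9]; exact e1

variable {v : ℂ} {A : Set (Fin 6)}

/-- case A at one point with at most three colours -/
theorem oneA180 (h : Irr U T) (hA3 : A.ncard = 3) {θa θ0 : ℝ} {c : ℕ → Fin 6}
    (hd : FD T v A θa θ0 c) (hs : Hxs T A (yy v θ0) fun k => c (k + 2)) {k : ℕ}
    (h3 : (T (yy v θ0 (k + 2))).ncard ≤ 3) {t : Fin 6} (htA : t ∈ A)
    (ht : t ∈ T (yy v θ0 (k + 2))) :
    ∀ᶠ g in 𝓝 v, t ∈ Pal U g → 1 ≤ dist g (yy v θ0 (k + 2)) := by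
  have hpi := Real.pi_gt_three
  have hev : ∀ᶠ p in 𝓝 (yy v θ0 (k + 2)), c (k + 3) ∈ Pal U p →
      dist p (yy v θ0 (k + 3)) ≤ 1 := by
    refine Vale.Agent.P032.S5.H783.arcA h.mx (Q := (fun θ => yy v θ (k + 3)) '' Icc θa θ0)
      (a0 := yy v θa (k + 3))
      (isPreconnected_Icc.image _ (continuous_yy v (k + 3)).continuousOn) ?_
      ⟨θ0, ⟨hd.lt.le, le_rfl⟩, rfl⟩ ⟨θa, ⟨le_rfl, hd.lt.le⟩, rfl⟩ ?_
    · rintro _ ⟨θ, hθm, rfl⟩
      exact h.sub _ (hd.arc (k + 3) hθm)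
    · apply dist_sq_lt dist_nonneg
      rw [dist_yy_add]
      have e1 : (θa - θ0) + (((k + 3 : ℕ) : ℝ) - ((k + 2 : ℕ) : ℝ)) * (Real.pi / 3) =
          Real.pi / 3 - (θ0 - θa) := by push_cast; ring
      rw [e1]
      have e2 : 1 / 2 < Real.cos (Real.pi / 3 - (θ0 - θa)) := by
        have := hd.lt
        have := hd.le
        rw [← Real.cos_pi_div_three]
        apply Real.cos_lt_cos_of_nonneg_of_le_pi <;> linarith
      linarith
  have hca : c (k + 2) ∈ T (yy v θ0 (k + 1)) :=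
    (hs.mem (k + 1) _ (hd.notA _)).2 (hd.ne1 (k + 2))
  have d1 : dist v (yy v θ0 (k + 1)) = 1 := by rw [dist_comm]; exact dist_yy v θ0 _
  have d2 : dist (yy v θ0 (k + 2)) (yy v θ0 (k + 1)) = 1 := by
    rw [dist_comm]; exact dist_yy_succ v θ0 (k + 1)
  have d3 : yy v θ0 (k + 3) = v + yy v θ0 (k + 2) - yy v θ0 (k + 1) := by
    linear_combination yy_rel v θ0 (k + 1)
  exact fzA h (a := yy v θ0 (k + 1)) (b := yy v θ0 (k + 3)) (c := c (k + 2))
    (c' := c (k + 3)) d1 d2 (dist_yy v θ0 _) d3 (hs.three hA3 h3 htA ht).subset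
    (h.sub _ hca) hev

/-- case B at one point with at most three colours -/
theorem oneB180 (h : Irr U T) (hA3 : A.ncard = 3) {θa θ0 : ℝ} {c : ℕ → Fin 6}
    (hd : FD T v A θa θ0 c) (hs : Hxs T A (yy v θ0) fun k => c (k + 1)) {k : ℕ}
    (h3 : (T (yy v θ0 (k + 2))).ncard ≤ 3) {t : Fin 6} (htA : t ∈ A)
    (ht : t ∈ T (yy v θ0 (k + 2))) :
    ∀ᶠ g in 𝓝 v, t ∈ Pal U g → dist g (yy v θ0 (k + 2)) ≤ 1 := by
  have hpi := Real.pi_gt_three
  have hev : ∀ᶠ p in 𝓝 (yy v θ0 (k + 2)), c (k + 1) ∈ Pal U p →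
      1 ≤ dist p (yy v θ0 (k + 1)) := by
    refine Vale.Agent.P032.S5.H783.arcB h.mx (Q := (fun θ => yy v θ (k + 1)) '' Icc θa θ0)
      (a0 := yy v θa (k + 1))
      (isPreconnected_Icc.image _ (continuous_yy v (k + 1)).continuousOn) ?_
      ⟨θ0, ⟨hd.lt.le, le_rfl⟩, rfl⟩ ⟨θa, ⟨le_rfl, hd.lt.le⟩, rfl⟩ ?_
    · rintro _ ⟨θ, hθm, rfl⟩
      exact h.sub _ (hd.arc (k + 1) hθm)
    · apply dist_sq_gt dist_nonneg
      rw [dist_yy_add]
      have e1 : (θa - θ0) + (((k + 1 : ℕ) : ℝ) - ((k + 2 : ℕ) : ℝ)) * (Real.pi / 3) =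
          -(Real.pi / 3 + (θ0 - θa)) := by push_cast; ring
      rw [e1, Real.cos_neg]
      have e2 : Real.cos (Real.pi / 3 + (θ0 - θa)) < 1 / 2 := by
        have := hd.lt
        have := hd.le
        rw [← Real.cos_pi_div_three]
        apply Real.cos_lt_cos_of_nonneg_of_le_pi <;> linarith
      linarith
  have hca : c (k + 2) ∈ T (yy v θ0 (k + 3)) :=
    (hs.mem (k + 3) _ (hd.notA _)).2 (hd.ne2 (k + 2))
  have d1 : dist v (yy v θ0 (k + 3)) = 1 := by rw [dist_comm]; exact dist_yy v θ0 _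
  have d2 : dist (yy v θ0 (k + 2)) (yy v θ0 (k + 3)) = 1 := dist_yy_succ v θ0 (k + 2)
  have d3 : yy v θ0 (k + 1) = v + yy v θ0 (k + 2) - yy v θ0 (k + 3) := by
    linear_combination yy_rel v θ0 (k + 1)
  refine fzB h (a := yy v θ0 (k + 3)) (b := yy v θ0 (k + 1)) (c := c (k + 2))
    (c' := c (k + 1)) d1 d2 (dist_yy v θ0 _) d3 ?_
    (h.sub _ hca) hev
  rw [hs.three hA3 h3 htA ht]
  rintro i (h5 | h5 | h5)
  · exact Or.inr (Or.inl h5)
  · exact Or.inl h5
  · exact Or.inr (Or.inr h5)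

/-- two neighbours with at most three colours have no common colour of `A` -/
theorem adj180 (h : Irr U T) (hA3 : A.ncard = 3) {θ : ℝ} {m : ℕ → Fin 6}
    (hs : Hxs T A (yy v θ) m) {k : ℕ} (h2 : (T (yy v θ (k + 2))).ncard ≤ 3)
    (h3 : (T (yy v θ (k + 3))).ncard ≤ 3) {s : Fin 6}
    (hsA : s ∈ A) (h1 : s ∈ T (yy v θ (k + 2))) (h2' : s ∈ T (yy v θ (k + 3))) : False := by
  have hr := rel_of_three h h2 (yy v θ (k + 3))
  have hsub : T (yy v θ (k + 3)) ⊆ insert (m (k + 2)) (T (yy v θ (k + 2))) := by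
    intro i hi
    by_cases hiA : i ∈ A
    · right
      rw [hs.uniq hA3 h3 hiA hi hsA h2']; exact h1
    · by_cases him : i = m (k + 2)
      · exact Or.inl him
      · exact Or.inr ((hs.mem (k + 2) i hiA).2 him)
  have h5 := hr.line h (v := yy v θ (k + 4)) (by rw [dist_comm]; exact dist_yy_succ v θ (k + 2))
    hsub (dist_yy_succ v θ (k + 3))
    (h.sub _ ((hs.mem (k + 4) _ (hs.notA _)).2 (hs.ne2 (k + 2))))
  exact yy_not_line v θ (k + 2) h5

/-- the last step: a colour which is not near `v` on the sides of the two neighbours of `V` -/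
theorem noside180 {V v w : ℂ} {θ ε : ℝ} {k : ℕ} (hε : ε = 1 ∨ ε = -1)
    (hV : V = yy v θ (k + 1)) (hw : dist w V = 1) (hwv : w ≠ v) (hw1 : dist w v < 1)
    (h1 : 0 ≤ ε * (dist w (yy v θ k) - 1)) (h2 : 0 ≤ ε * (dist w (yy v θ (k + 2)) - 1)) :
    False := by
  have hr : 0 < dist w v := dist_pos.2 hwv
  have r1 := yy_rel v θ k
  have r2 := yy_rel v θ (k + 1)
  have r3 := yy_rel v θ (k + 2)
  have q0 := dist_sq_ip w v (yy v θ k) (dist_yy v θ k)
  have q1 := dist_sq_ip w v (yy v θ (k + 1)) (dist_yy v θ (k + 1))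
  have q2 := dist_sq_ip w v (yy v θ (k + 2)) (dist_yy v θ (k + 2))
  rw [← hV, hw] at q1
  have es := ip_sum v w θ k
  have eq := ip_sq_sum v w θ k
  have o2 : yy v θ (k + 4) - v = -(yy v θ (k + 1) - v) := by linear_combination r2 + r3
  have n4 : S5.H783.ip (w - v) (yy v θ (k + 4) - v) =
      -S5.H783.ip (w - v) (yy v θ (k + 1) - v) := by
    rw [o2]; simp only [S5.H783.ip, Complex.neg_re, Complex.neg_im]; ring
  rw [n4, ← hV] at es eq
  set R := dist w v with hR
  set a0 := S5.H783.ip (w - v) (yy v θ k - v) with ha0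
  set a1 := S5.H783.ip (w - v) (V - v) with ha1
  set a2 := S5.H783.ip (w - v) (yy v θ (k + 2) - v) with ha2
  have e1 : a1 = R ^ 2 / 2 := by nlinarith
  rcases hε with rfl | rfl
  · have b0 := q_pos h1 q0
    have b2 := q_pos h2 q2
    have c0 : 0 ≤ a0 := by linarith
    have c2 : 0 ≤ a2 := by linarith
    have d0 : a0 ^ 2 ≤ (R ^ 2 / 2) ^ 2 := by nlinarith
    have d2 : a2 ^ 2 ≤ (R ^ 2 / 2) ^ 2 := by nlinarith
    have d1 : (-a1) ^ 2 = (R ^ 2 / 2) ^ 2 := by rw [e1]; ring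
    have hR2 : R ^ 2 < 1 := by nlinarith
    have hR0 : 0 < R ^ 2 := by positivity
    nlinarith
  · have b0 := q_neg dist_nonneg h1 q0
    have b2 := q_neg dist_nonneg h2 q2
    have hR0 : 0 < R ^ 2 := by positivity
    linarith

/-- **Not frozen at a plain end.** -/
theorem _root_.Vale.Agent.P032.Six.Irr.not_Frz180 (h : Irr U T) {V v : ℂ} {a b m n g : Fin 6}
    (hz : DPt T V a b m n) (hvV : dist v V = 1) (h3 : (T v).ncard = 3) (hT : T v = {m, n, g})
    (hgV : g ∉ T V) (hiso : ∀ᶠ w in 𝓝 V, 4 ≤ (T w).ncard → w = V)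
    (hle : ∀ y, dist y V = 1 → dist y v = 1 → (T y).ncard ≤ 3 ∨ (a ∈ T y ∧ b ∈ T y))
    (hQ2 : ∀ y, dist y v = 1 → ∃ i, i ∉ T v ∧ i ∉ T y) {col : Fin 3 → Fin 6}
    (hcol : ∀ i, i ∉ T v ↔ ∃ l, i = col l) (hinj : Function.Injective col) : ¬ Frz v T col := by
  intro hf
  obtain ⟨c, d, e, σ, hcov, hcd, hde, hce, hσc, hσd, hσe, hfr⟩ := frz_sigma hcol hinj hf
  have haV : a ∈ T V := by rw [hz.pal]; exact Or.inl rfl
  have hbV : b ∈ T V := by rw [hz.pal]; exact Or.inr (Or.inl rfl)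
  have hmV : m ∈ T V := by rw [hz.pal]; exact Or.inr (Or.inr (Or.inl rfl))
  have hnV : n ∈ T V := by rw [hz.pal]; exact Or.inr (Or.inr (Or.inr rfl))
  have haA : a ∉ T v := by
    rw [hT]
    rintro (h1 | h1 | h1)
    · exact hz.ac h1
    · exact hz.ad h1
    · exact hgV (h1 ▸ haV)
  have hbA : b ∉ T v := by
    rw [hT]
    rintro (h1 | h1 | h1)
    · exact hz.bc h1
    · exact hz.bd h1
    · exact hgV (h1 ▸ hbV)
  -- palettes inside `T V` on the circle about `V`
  have hnear : ∀ y, dist y V = 1 → T y ⊆ T V → (a ∈ T y ∧ b ∈ T y) ∨ (m ∈ T y ∧ n ∈ T y) := by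
    intro y hy hs
    rcases (pv_of_dpt h hz).near y hy hs with h1 | h1
    · exact Or.inl ⟨sub_of_closure h h1 (Or.inl rfl), sub_of_closure h h1 (Or.inr rfl)⟩
    · exact Or.inr ⟨sub_of_closure h h1 (Or.inl rfl), sub_of_closure h h1 (Or.inr rfl)⟩
  -- the time of `V`
  obtain ⟨θ0, hθ0⟩ := exists_cis (u := V - v) (by rw [← dist_eq_norm, dist_comm]; exact hvV)
  have hV0 : V = yy v θ0 0 := by
    rw [yy, Nat.cast_zero, zero_mul, add_zero, ← hθ0]; ring
  have hV6 : V = yy v θ0 6 := by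
    have := yy_six v θ0 0
    rw [Nat.zero_add] at this
    rw [this]; exact hV0
  obtain ⟨p1, hp1⟩ := hz.arc1
  have hp1d : dist p1 V = 1 := hp1.1
  have hp1T : T p1 = {a, b} := hp1.2.self_of_nhdsWithin hp1.1
  obtain ⟨r, hr, hrp⟩ := Metric.eventually_nhds_iff.1
    (hiso.and ((h.nhd V).and (h.no_layer hp1d)))
  set θa := θ0 - min (r / 2) (1 / 2) with hθa
  have hη0 : 0 < min (r / 2) (1 / 2) := lt_min (by linarith) (by norm_num)
  have hη1 : min (r / 2) (1 / 2) ≤ 1 / 2 := min_le_right _ _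
  have hη2 : min (r / 2) (1 / 2) < r := (min_le_left _ _).trans_lt (by linarith)
  have ha0 : θa < θ0 := by rw [hθa]; linarith
  have ha1 : θ0 - θa ≤ 1 / 2 := by rw [hθa]; linarith
  have hpi := Real.pi_gt_three
  have hone : ∀ θ ∈ Ico θa θ0, (∀ i, i ∉ T v → i ∈ T (yy v θ 0) → i = a ∨ i = b) ∧
      (a ∈ T (yy v θ 0) ∨ b ∈ T (yy v θ 0)) ∧ ¬ (a ∈ T (yy v θ 0) ∧ b ∈ T (yy v θ 0)) := by
    intro θ hθ
    set w := yy v θ 0 with hw
    have hwd : dist w V < r := by
      rw [hV0, hw, yy, yy, dist_add_left, dist_eq_norm]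
      refine (norm_cis_sub_le _ _).trans_lt ?_
      have e1 : θ + ((0 : ℕ) : ℝ) * (Real.pi / 3) - (θ0 + ((0 : ℕ) : ℝ) * (Real.pi / 3)) =
          -(θ0 - θ) := by push_cast; ring
      rw [e1, abs_neg, abs_of_pos (by linarith [hθ.2])]
      have := hθ.1
      rw [hθa] at this
      linarith
    have hwV : w ≠ V := by
      intro h5
      have h6 := dist_yy_add v θ θ0 0 0
      rw [← hw, ← hV0, h5, dist_self] at h6
      have h7 : Real.cos (θ - θ0) < 1 := by
        rw [← Real.cos_abs, ← Real.cos_zero]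
        apply Real.cos_lt_cos_of_nonneg_of_le_pi le_rfl
        · rw [abs_of_neg (by linarith [hθ.2])]
          linarith [hθ.1, ha1]
        · exact abs_pos.2 (by linarith [hθ.2])
      rw [sub_self, zero_mul, add_zero] at h6
      norm_num at h6
      linarith
    obtain ⟨k1, k2, k3⟩ := hrp hwd
    have hin : ∀ i, i ∉ T v → i ∈ T w → i = a ∨ i = b := by
      intro i hi hi'
      have h5 := k2 hi'
      rw [hz.pal] at h5
      rcases h5 with h5 | h5 | h5 | h5
      · exact Or.inl h5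
      · exact Or.inr h5
      · exact absurd (by rw [h5, hT]; exact Or.inl rfl) hi
      · rw [mem_singleton_iff] at h5
        exact absurd (by rw [h5, hT]; exact Or.inr (Or.inl rfl)) hi
    refine ⟨hin, ?_, ?_⟩
    · obtain ⟨i, hi, hi'⟩ := h.not_sub' (dist_yy v θ 0) h3.le
      rcases hin i hi' hi with rfl | rfl
      · exact Or.inl hi
      · exact Or.inr hi
    · rintro ⟨h5, h6⟩
      refine hwV (k1 (k3 ?_))
      rw [hp1T]
      rintro i (rfl | hi)
      · exact h5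
      · rw [mem_singleton_iff] at hi; subst hi; exact h6
  have hcl : ∀ i, IsClosed {θ : ℝ | i ∈ T (yy v θ 0)} := fun i =>
    (h.closed i).preimage (continuous_yy v 0)
  have hs : ∃ s s', ((s = a ∧ s' = b) ∨ (s = b ∧ s' = a)) ∧
      ∀ θ ∈ Ico θa θ0, s ∈ T (yy v θ 0) := by
    by_contra hcon
    push Not at hcon
    obtain ⟨δ1, a1, a3⟩ := hcon a b (Or.inl ⟨rfl, rfl⟩)
    obtain ⟨δ2, b1, b3⟩ := hcon b a (Or.inr ⟨rfl, rfl⟩)
    have hpre : IsPreconnected (Ico θa θ0) := isPreconnected_Ico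
    rw [isPreconnected_closed_iff] at hpre
    obtain ⟨δ, hδ, hδ1, hδ2⟩ := hpre {δ : ℝ | a ∈ T (yy v δ 0)} {δ : ℝ | b ∈ T (yy v δ 0)}
      (hcl a) (hcl b) (fun δ hδ => (hone δ hδ).2.1)
      ⟨δ2, b1, ((hone δ2 b1).2.1.resolve_right b3)⟩
      ⟨δ1, a1, ((hone δ1 a1).2.1.resolve_left a3)⟩
    exact (hone δ hδ).2.2 ⟨hδ1, hδ2⟩
  obtain ⟨s, s', hss, hsθ⟩ := hs
  have hsV : s ∈ T V ∧ s' ∈ T V ∧ s ∉ T v ∧ s' ∉ T v ∧ s' ≠ s := by
    rcases hss with ⟨rfl, rfl⟩ | ⟨rfl, rfl⟩
    · exact ⟨haV, hbV, haA, hbA, hz.ab.symm⟩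
    · exact ⟨hbV, haV, hbA, haA, hz.ab⟩
  obtain ⟨cc, hd, hhx⟩ := frz_at180 (T := T) (v := v) (A := T v) h3 hQ2 hcov hcd hde hce σ hσc hσd
    hσe hfr ha0 ha1 (m := s) (m' := s') hsV.2.2.1 hsV.2.2.2.1 hsV.2.2.2.2 (hV0 ▸ hsV.1)
    (hV0 ▸ hsV.2.1) (fun θ hθ i hi => by
      constructor
      · intro hi'
        have h5 := (hone θ hθ).1 i hi hi'
        have h6 := (hone θ hθ).2.2
        have h7 := hsθ θ hθ
        rcases hss with ⟨rfl, rfl⟩ | ⟨rfl, rfl⟩
        · rcases h5 with h5 | h5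
          · exact h5
          · exact absurd ⟨h7, h5 ▸ hi'⟩ h6
        · rcases h5 with h5 | h5
          · exact absurd ⟨h5 ▸ hi', h7⟩ h6
          · exact h5
      · intro hi'
        rw [hi']; exact hsθ θ hθ)
  -- facts for both cases
  have main : ∀ μ : ℕ → Fin 6, Hxs T (T v) (yy v θ0) μ →
      (T (yy v θ0 5)).ncard ≤ 3 ∧ (T (yy v θ0 7)).ncard ≤ 3 ∧ g ∈ T (yy v θ0 5) ∧
      g ∈ T (yy v θ0 7) := by
    intro μ hs
    have e6 : ∀ k, (a ∈ T (yy v θ0 k) ∧ b ∈ T (yy v θ0 k)) → μ k = μ 6 := by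
      rintro k ⟨h5, h6⟩
      have h7 := (hs.mem k a haA).1 h5
      have h8 := (hs.mem k b hbA).1 h6
      have h9 := (hs.mem 6 a haA).1 (hV6 ▸ haV)
      have h10 := (hs.mem 6 b hbA).1 (hV6 ▸ hbV)
      rcases covA h3 haA hbA (hs.notA 6) hz.ab h10 h9 (hs.notA k) with h11 | h11 | h11
      · exact absurd h11.symm h7
      · exact absurd h11.symm h8
      · exact h11
    have d5 : dist (yy v θ0 5) V = 1 := by rw [hV6]; exact dist_yy_succ v θ0 5
    have d7 : dist (yy v θ0 7) V = 1 := by rw [hV6, dist_comm]; exact dist_yy_succ v θ0 6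
    have n5 : ¬ (a ∈ T (yy v θ0 5) ∧ b ∈ T (yy v θ0 5)) := fun h5 => hs.ne1 5 (e6 5 h5)
    have n7 : ¬ (a ∈ T (yy v θ0 7) ∧ b ∈ T (yy v θ0 7)) := fun h5 => hs.ne1 6 (e6 7 h5).symm
    have l5 := (hle _ d5 (dist_yy v θ0 5)).resolve_right n5
    have l7 := (hle _ d7 (dist_yy v θ0 7)).resolve_right n7
    have hμV : μ 6 ∉ T V := fun h5 => (hs.mem 6 _ (hs.notA 6)).1 (hV6 ▸ h5) rfl
    obtain ⟨t5, ht5, ht5'⟩ := hs.ex h h3 3
    obtain ⟨t7, ht7, ht7'⟩ := hs.ex h h3 5
    have hrel : ∀ j, (T (yy v θ0 (j + 2))).ncard ≤ 3 →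
        ¬ (a ∈ T (yy v θ0 (j + 2)) ∧ b ∈ T (yy v θ0 (j + 2))) →
        Rel T V (yy v θ0 (j + 2)) := by
      intro j hj hj' w hw h5 h6
      rcases hnear w hw h6 with h7 | h7
      · exact hj' ⟨h5 h7.1, h5 h7.2⟩
      · have h8 := hs.uniq h3 hj (by rw [hT]; exact Or.inl rfl : m ∈ T v) (h5 h7.1)
          (by rw [hT]; exact Or.inr (Or.inl rfl) : n ∈ T v) (h5 h7.2)
        exact hz.cd h8
    have k5 : t5 = g := by
      by_contra hcon
      have h5 : t5 ∈ T V := by
        rw [hT] at ht5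
        rcases ht5 with h5 | h5 | h5
        · rw [h5]; exact hmV
        · rw [h5]; exact hnV
        · exact absurd h5 hcon
      have hsub : T (yy v θ0 (3 + 2)) ⊆ insert (μ 6) (T V) := by
        intro i hi
        by_cases hiA : i ∈ T v
        · right
          rw [hs.uniq h3 l5 hiA hi ht5 ht5']; exact h5
        · by_cases him : i = μ 6
          · exact Or.inl him
          · right
            rw [hV6]
            exact (hs.mem 6 i hiA).2 him
      have h6 := (hrel 3 l5 n5).line h (v := yy v θ0 4) d5 hsub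
        (by rw [dist_comm]; exact dist_yy_succ v θ0 4)
        (h.sub _ ((hs.mem 4 _ (hs.notA _)).2 (hs.ne2 4).symm))
      rw [hV6] at h6
      exact not_line' v θ0 4 h6
    have k7 : t7 = g := by
      by_contra hcon
      have h5 : t7 ∈ T V := by
        rw [hT] at ht7
        rcases ht7 with h5 | h5 | h5
        · rw [h5]; exact hmV
        · rw [h5]; exact hnV
        · exact absurd h5 hcon
      have hsub : T (yy v θ0 (5 + 2)) ⊆ insert (μ 6) (T V) := by
        intro i hi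
        by_cases hiA : i ∈ T v
        · right
          rw [hs.uniq h3 l7 hiA hi ht7 ht7']; exact h5
        · by_cases him : i = μ 6
          · exact Or.inl him
          · right
            rw [hV6]
            exact (hs.mem 6 i hiA).2 him
      have h6 := (hrel 5 l7 n7).line h (v := yy v θ0 8) d7 hsub
        (dist_yy_succ v θ0 7)
        (h.sub _ ((hs.mem 8 _ (hs.notA _)).2 (hs.ne2 6)))
      rw [hV6] at h6
      exact yy_not_line v θ0 6 h6
    exact ⟨l5, l7, k5 ▸ ht5', k7 ▸ ht7'⟩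
  have hgA : g ∈ T v := by rw [hT]; exact Or.inr (Or.inr rfl)
  -- both sides of `v` on the circle about `V`
  have fin : ∀ μ : ℕ → Fin 6, Hxs T (T v) (yy v θ0) μ → ∀ ε : ℝ, (ε = 1 ∨ ε = -1) →
      (∀ᶠ w in 𝓝 v, g ∈ T w → 0 ≤ ε * (dist w (yy v θ0 5) - 1)) →
      (∀ᶠ w in 𝓝 v, g ∈ T w → 0 ≤ ε * (dist w (yy v θ0 7) - 1)) → False := by
    intro μ hs ε hε h5 h7
    obtain ⟨l5, l7, g5, g7⟩ := main μ hs
    have hev : ∀ᶠ w in 𝓝 v, dist w V = 1 → w ≠ v → g ∉ T w := by
      filter_upwards [h5, h7, Metric.ball_mem_nhds v one_pos] with w k1 k2 k3 hwV hwv hgw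
      exact noside180 (θ := θ0) (k := 5) hε hV6 hwV hwv k3 (k1 hgw) (k2 hgw)
    -- then `m` and `n` are on the circle about `V` near `v`
    have hmn : ∀ᶠ w in 𝓝[sphere V 1] v, m ∈ T w ∧ n ∈ T w := by
      filter_upwards [mem_nhdsWithin_of_mem_nhds hev, mem_nhdsWithin_of_mem_nhds (h.nhd v),
        self_mem_nhdsWithin] with w k1 k2 k3
      have k3 : dist w V = 1 := k3
      by_cases hwv : w = v
      · rw [hwv, hT]
        exact ⟨Or.inl rfl, Or.inr (Or.inl rfl)⟩
      · have k4 := k1 k3 hwv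
        have k5 : ∀ i ∈ T w, i = m ∨ i = n := by
          intro i hi
          have k6 := k2 hi
          rw [hT] at k6
          rcases k6 with k6 | k6 | k6
          · exact Or.inl k6
          · exact Or.inr k6
          · rw [mem_singleton_iff] at k6
            exact absurd (k6 ▸ hi) k4
        rcases hnear w k3 (fun i hi => by
          rcases k5 i hi with k6 | k6
          · rw [k6]; exact hmV
          · rw [k6]; exact hnV) with k6 | k6
        · exact absurd (k2 k6.1) haA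
        · exact k6
    have hline : ∀ u, dist v u = 1 → (m ∈ T u ∨ n ∈ T u) → u = V ∨ u + V = 2 * v := by
      rintro u hu (h8 | h8)
      · exact h.mx.partner_line hvV (hmn.mono fun q hq => h.sub q hq.1) hu (h.sub _ h8)
      · exact h.mx.partner_line hvV (hmn.mono fun q hq => h.sub q hq.2) hu (h.sub _ h8)
    -- the next neighbour
    have hn8 : ∀ i, i = m ∨ i = n → i ∉ T (yy v θ0 8) := by
      intro i hi hi'
      have h8 := hline (yy v θ0 8) (by rw [dist_comm]; exact dist_yy v θ0 8) (by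
        rcases hi with rfl | rfl
        · exact Or.inl hi'
        · exact Or.inr hi')
      rw [hV6] at h8
      have r := yy_rel v θ0 6
      rcases h8 with h8 | h8
      · exact yy_not_line v θ0 6 (Or.inl h8)
      · rw [r] at h8
        have h9 : yy v θ0 7 = v := by linear_combination h8
        have h10 := dist_yy v θ0 7
        rw [h9, dist_self] at h10
        norm_num at h10
    obtain ⟨t, ht, ht'⟩ := hs.ex h h3 6
    have htg : t = g := by
      have h8 := ht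
      rw [hT] at h8
      rcases h8 with h8 | h8 | h8
      · exact absurd ht' (hn8 t (Or.inl h8))
      · exact absurd ht' (hn8 t (Or.inr h8))
      · exact h8
    have h8 : (T (yy v θ0 8)).ncard ≤ 3 := by
      have h9 : T (yy v θ0 8) ⊆ {μ 6, μ 7, g} := by
        intro i hi
        by_cases hiA : i ∈ T v
        · rw [hT] at hiA
          rcases hiA with h10 | h10 | h10
          · exact absurd hi (hn8 i (Or.inl h10))
          · exact absurd hi (hn8 i (Or.inr h10))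
          · exact Or.inr (Or.inr h10)
        · rcases hs.cov h3 6 hiA with h10 | h10 | h10
          · exact Or.inl h10
          · exact Or.inr (Or.inl h10)
          · exact absurd h10 ((hs.mem 8 i hiA).1 hi)
      refine (Set.ncard_le_ncard h9 (Set.toFinite _)).trans ?_
      refine (Set.ncard_insert_le _ _).trans ?_
      have := Set.ncard_insert_le (μ 7) {g}
      rw [Set.ncard_singleton] at this
      omega
    exact adj180 h h3 hs (k := 5) l7 h8 hgA g7 (htg ▸ ht')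
  rcases hhx with hs | hs
  · obtain ⟨l5, l7, g5, g7⟩ := main _ hs
    refine fin _ hs 1 (Or.inl rfl) ?_ ?_
    · refine (oneA180 h h3 hd hs (k := 3) l5 hgA g5).mono fun w hw hw' => ?_
      have := hw (h.sub w hw')
      linarith
    · refine (oneA180 h h3 hd hs (k := 5) l7 hgA g7).mono fun w hw hw' => ?_
      have := hw (h.sub w hw')
      linarith
  · obtain ⟨l5, l7, g5, g7⟩ := main _ hs
    refine fin _ hs (-1) (Or.inr rfl) ?_ ?_
    · refine (oneB180 h h3 hd hs (k := 3) l5 hgA g5).mono fun w hw hw' => ?_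
      have := hw (h.sub w hw')
      linarith
    · refine (oneB180 h h3 hd hs (k := 5) l7 hgA g7).mono fun w hw hw' => ?_
      have := hw (h.sub w hw')
      linarith

end Vale.Agent.P032.H180
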