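import Vale.Agent.P032.H780.TipI
import Vale.Agent.P032.H553.PtV
import Vale.Agent.P032.H383.AltC
import Vale.Agent.P032.S5.H180.RulesH
import Vale.Agent.P032.H758.GaugeI

/-!
# P032, X, the ring at a three coloured point: violations of the sixty degree rule are swaps

World without invisible points, all chains all-STAY.  `SwV180 T f x V y` : `V` a two-pair point of
`S(x)` with the separated pair in `T x`, the connecting pair outside `T x`, `y` on `S(x)` and on the
closed connecting arc.  `viol180` : two points `y, z` of `S(x)` at distance one with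
`T y \ T x ⊆ T z` (none of them has all colours outside `T x`) are a swap.  `sameA180` : two two-pair
points of `S(x)` with a common pair which is the palette of points near `x` are equal.
`swap_unique180` : at the tip there is at most one swap.
-/

open Set Filter Topology Metric

noncomputable section

namespace Vale.Agent.P032.Six

open Vale.Agent.P032.S5 Vale.Agent.P032.Carr Vale.Agent.P032.S5.H767 Vale.Agent.P032.H961
  Vale.Agent.P032.H227
open Vale.Agent.P032.S5.H57 (lineF no_partner two_out compl_sub rule3 ruleTo ruleFrom not_line)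
open Vale.Agent.P032.S5.H180 (Bs)

variable {U : Fin 6 → Set ℂ} {T : ℂ → Set (Fin 6)} {f : ℂ → Set (Fin 6)} {Z : Set ℂ} {c : ℂ}
  {R δ₀ : ℝ} {x y z V W W' : ℂ} {m n : Fin 6}

/-- a swap vertex `V` of `x` with the apex `y` -/
def SwV180 (T : ℂ → Set (Fin 6)) (f : ℂ → Set (Fin 6)) (x V y : ℂ) : Prop :=
  ∃ a b m n : Fin 6, DPt T V a b m n ∧ f V = {a, b} ∧ a ∈ T x ∧ b ∈ T x ∧ m ∉ T x ∧ n ∉ T x ∧
    m ∈ T y ∧ n ∈ T y ∧ y ∈ closure (Ex T V {m, n})

/-- near a harmless point the points with four colours are harmless -/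
theorem DF.ev_harm180 (h : DF U T) {A : Set (Fin 6)} (hA : Six.Harm T z A) :
    ∀ᶠ w in 𝓝 z, 4 ≤ (T w).ncard → ∃ A', Six.Harm T w A' := by
  have hnD : ¬ ∃ a b c d, DPt T z a b c d := fun ⟨a, b, c, d, hD⟩ => not_harm_of_dpt hA hD
  have hev : ∀ᶠ w in 𝓝 z, ¬ ∃ a b c d, DPt T w a b c d := by
    rw [← not_frequently]
    exact fun hcl => hnD (h.dpt_of_closure (mem_closure_iff_frequently.2 hcl))
  filter_upwards [hev] with w w2 w4
  rcases h.harm_or w4 with hA' | hD'
  · exact hA'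
  · exact absurd hD' w2

theorem mem_ex180 (h : Irr U T) {a b c' d : Fin 6} (hW : DPt T W a b c' d) (hy : dist y W = 1)
    (hT : T y = {a, b}) : y ∈ Ex T W {a, b} := by
  refine ⟨hy, ?_⟩
  have h1 := H383.XA_open h hW (x := y) ⟨hy, hT⟩
  filter_upwards [mem_nhdsWithin_of_mem_nhds h1, self_mem_nhdsWithin] with q h2 h3
  exact (h2 h3).2

theorem sq_one180 {u v : ℂ} (huv : dist u v = 1) : (u.re - v.re) ^ 2 + (u.im - v.im) ^ 2 = 1 := by
  have := Complex.sq_norm (u - v)
  rw [← dist_eq_norm, huv, Complex.normSq_apply] at this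
  simp only [Complex.sub_re, Complex.sub_im] at this
  nlinarith

theorem sq_zero180 {a b : ℝ} (h : a ^ 2 + b ^ 2 = 0) : a = 0 ∧ b = 0 := by
  have h1 := sq_nonneg a
  have h2 := sq_nonneg b
  have h3 : a ^ 2 = 0 := by linarith
  have h4 : b ^ 2 = 0 := by linarith
  exact ⟨pow_eq_zero_iff two_ne_zero |>.1 h3, pow_eq_zero_iff two_ne_zero |>.1 h4⟩

/-- two vectors orthogonal to each other and a third one orthogonal to both -/
theorem orth180 {α β γ ε σ τ : ℝ} (o1 : α * γ + β * ε = 0) (o2 : α * σ + β * τ = 0)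
    (o3 : γ * σ + ε * τ = 0) (hab : α ^ 2 + β ^ 2 ≠ 0) (hge : γ ^ 2 + ε ^ 2 ≠ 0) :
    σ ^ 2 + τ ^ 2 = 0 := by
  have d1 : (α ^ 2 + β ^ 2) * (σ * ε - τ * γ) = 0 := by
    have : (α ^ 2 + β ^ 2) * (σ * ε - τ * γ) =
        (α * σ + β * τ) * (α * ε - β * γ) + (α * γ + β * ε) * (β * σ - α * τ) := by ring
    rw [this, o1, o2]; ring
  have d2 : σ * ε - τ * γ = 0 := (mul_eq_zero.1 d1).resolve_left hab
  have d3 : (σ ^ 2 + τ ^ 2) * (γ ^ 2 + ε ^ 2) = (γ * σ + ε * τ) ^ 2 + (σ * ε - τ * γ) ^ 2 := by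
    ring
  rw [o3, d2] at d3
  have d4 : (σ ^ 2 + τ ^ 2) * (γ ^ 2 + ε ^ 2) = 0 := by rw [d3]; ring
  exact (mul_eq_zero.1 d4).resolve_right hge

/-- two common points of two unit circles -/
theorem two_circ180 {p q : ℂ} (a1 : dist p W = 1) (a2 : dist p W' = 1) (a3 : dist q W = 1)
    (a4 : dist q W' = 1) (hne : W ≠ W') (hpq : p ≠ q) : p = W + W' - q := by
  have b1 := sq_one180 a1
  have b2 := sq_one180 a2
  have b3 := sq_one180 a3
  have b4 := sq_one180 a4
  have o1 : (p.re - q.re) * (W.re - W'.re) + (p.im - q.im) * (W.im - W'.im) = 0 := by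
    linear_combination (-1 / 2 : ℝ) * b1 + (1 / 2 : ℝ) * b2 + (1 / 2 : ℝ) * b3 -
      (1 / 2 : ℝ) * b4
  have o2 : (p.re - q.re) * (p.re + q.re - W.re - W'.re) +
      (p.im - q.im) * (p.im + q.im - W.im - W'.im) = 0 := by
    linear_combination (1 / 2 : ℝ) * b1 + (1 / 2 : ℝ) * b2 - (1 / 2 : ℝ) * b3 -
      (1 / 2 : ℝ) * b4
  have o3 : (W.re - W'.re) * (p.re + q.re - W.re - W'.re) +
      (W.im - W'.im) * (p.im + q.im - W.im - W'.im) = 0 := by
    linear_combination (-1 / 2 : ℝ) * b1 + (1 / 2 : ℝ) * b2 - (1 / 2 : ℝ) * b3 +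
      (1 / 2 : ℝ) * b4
  obtain ⟨α, hα⟩ : ∃ α, α = p.re - q.re := ⟨_, rfl⟩
  obtain ⟨β, hβ⟩ : ∃ β, β = p.im - q.im := ⟨_, rfl⟩
  obtain ⟨γ, hγ⟩ : ∃ γ, γ = W.re - W'.re := ⟨_, rfl⟩
  obtain ⟨ε, hε⟩ : ∃ ε, ε = W.im - W'.im := ⟨_, rfl⟩
  obtain ⟨σ, hσ⟩ : ∃ σ, σ = p.re + q.re - W.re - W'.re := ⟨_, rfl⟩
  obtain ⟨τ, hτ⟩ : ∃ τ, τ = p.im + q.im - W.im - W'.im := ⟨_, rfl⟩
  rw [← hα, ← hβ, ← hγ, ← hε] at o1
  rw [← hα, ← hβ, ← hσ, ← hτ] at o2
  rw [← hγ, ← hε, ← hσ, ← hτ] at o3
  have hab : α ^ 2 + β ^ 2 ≠ 0 := fun h0 =>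
    hpq (Complex.ext (by linarith [(sq_zero180 h0).1]) (by linarith [(sq_zero180 h0).2]))
  have hge : γ ^ 2 + ε ^ 2 ≠ 0 := fun h0 =>
    hne (Complex.ext (by linarith [(sq_zero180 h0).1]) (by linarith [(sq_zero180 h0).2]))
  obtain ⟨h6, h7⟩ := sq_zero180 (orth180 o1 o2 o3 hab hge)
  apply Complex.ext
  · simp only [Complex.sub_re, Complex.add_re]; linarith
  · simp only [Complex.sub_im, Complex.add_im]; linarith

/-- **same pair** -/
theorem sameA180 (h : Irr U T) {a b c' d c'' d' : Fin 6} (hW : DPt T W a b c' d)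
    (hW' : DPt T W' a b c'' d') (hx : dist x W = 1) (hx' : dist x W' = 1)
    (h3 : T x ≠ {a, b}) (hfr : ∃ᶠ w in 𝓝 x, T w = {a, b}) : W = W' := by
  by_contra hne
  have e1 : ∀ {V : ℂ} {c' d : Fin 6}, DPt T V a b c' d → dist x V = 1 →
      ∀ᶠ w in 𝓝 x, T w = {a, b} → dist w V = 1 := by
    intro V c' d hV hxV
    rcases h.sides hV hxV with hS | hS
    · filter_upwards [hS] with w hw hT
      rcases lt_trichotomy (dist w V) 1 with h1 | h1 | h1
      · exact absurd (h.sub w (by rw [hT]; simp)) (hw.2 h1)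
      · exact h1
      · exact absurd (h.sub w (by rw [hT]; simp)) (hw.1 h1)
    · filter_upwards [hS] with w hw hT
      rcases lt_trichotomy (dist w V) 1 with h1 | h1 | h1
      · exact absurd (h.sub w (by rw [hT]; simp)) (hw.2 h1)
      · exact h1
      · exact absurd (h.sub w (by rw [hT]; simp)) (hw.1 h1)
  have e2 : ∀ᶠ w in 𝓝 x, w = x ∨ w ≠ W + W' - x := by
    by_cases hx2 : x = W + W' - x
    · filter_upwards with w
      by_cases hw : w = W + W' - x
      · exact Or.inl (hw.trans hx2.symm)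
      · exact Or.inr hw
    · have : {w : ℂ | w ≠ W + W' - x} ∈ 𝓝 x := isOpen_ne.mem_nhds hx2
      filter_upwards [this] with w hw
      exact Or.inr hw
  obtain ⟨w, hT, h1, h2, h4⟩ := (hfr.and_eventually ((e1 hW hx).and ((e1 hW' hx').and e2))).exists
  have hwx : w ≠ x := by
    rintro rfl
    exact h3 hT
  exact h4.resolve_left hwx (two_circ180 (h1 hT) (h2 hT) hx hx' hne hwx)

/-- a mixed pair is impossible -/
theorem mixed180 (h : Irr U T) {t1 r1 t2 r2 : Fin 6} (hp : DPt T y t1 r1 t2 r2)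
    (hx : dist x y = 1) (hz : dist z y = 1) (hxz : dist x z = 1) (hx3 : (T x).ncard ≤ 3)
    (r1x : r1 ∈ T x) (r2x : r2 ∈ T x) (t1z : t1 ∈ T z)
    (Hu : ∀ᶠ w in 𝓝[sphere z 1] y, r1 ∈ T w ∨ r2 ∈ T w) : False := by
  have _ := t1z
  have hne := not_line (u := x) (v := z) (p := y) hxz (by rw [dist_comm]; exact hx)
  refine H383.alt h hp hx hz (fun e => hne (Or.inl e)) (fun e => hne (Or.inr e)) r1x r2x ?_ Hu
  filter_upwards [mem_nhdsWithin_of_mem_nhds (h.nhd y), self_mem_nhdsWithin] with w h1 h2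
  obtain ⟨i, hi, hi'⟩ := h.not_sub' (x := x) (y := w) h2 hx3
  have h4 := h1 hi
  rw [hp.pal] at h4
  rcases h4 with rfl | rfl | rfl | h4
  · exact Or.inl hi
  · exact absurd r1x hi'
  · exact Or.inr hi
  · rw [mem_singleton_iff] at h4
    subst h4
    exact absurd r2x hi'

/-- the connecting pair at a point of the circle with at most three colours -/
theorem cl180 (h : Irr U T) {a b : Fin 6} (hy : DPt T y a b m n) (hzy : dist z y = 1)
    (hxz : dist x z = 1) (hxy : dist x y = 1) (hz3 : (T z).ncard ≤ 3) (hm : m ∈ T z) (hn : n ∈ T z)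
    (ho : ∀ i ∈ T z, i ≠ m → i ≠ n → i ∈ T x) :
    z ∈ closure (Ex T y {m, n}) := by
  by_contra hcl
  have h1 := H383.full_near h hy.swap hcl
  have hmn : m ≠ n := hy.cd
  by_cases ht : ∃ t ∈ T z, t ≠ m ∧ t ≠ n
  · obtain ⟨t, ht, htm, htn⟩ := ht
    have e : T z = {m, n, t} := by
      symm
      apply Set.eq_of_subset_of_ncard_le
      · rintro i (rfl | rfl | rfl) <;> assumption
      · rw [Set.ncard_insert_of_notMem, Set.ncard_pair htn.symm]
        · exact hz3
        · rintro (h7 | h7)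
          · exact hmn h7
          · exact htm h7.symm
      · exact Set.toFinite _
    refine no_partner h (u := y) (p := z) (v := x) (t := t) hzy ?_ (by rw [dist_comm]; exact hxz)
      (by rw [dist_comm]; exact hxy) (ho t ht htm htn)
    filter_upwards [h1, mem_nhdsWithin_of_mem_nhds (h.nhd z)] with w h2 h3
    by_contra h4
    refine h2 fun i hi => ?_
    have h5 := h3 hi
    rw [e] at h5
    rcases h5 with h5 | h5 | h5
    · exact Or.inl h5
    · exact Or.inr (Or.inl h5)
    · rw [mem_singleton_iff] at h5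
      exact absurd (h5 ▸ hi) h4
  · push Not at ht
    have h2 : ¬ T z ⊆ {m, n, b} := by
      have h3 : z ∈ sphere y 1 := hzy
      exact h1.self_of_nhdsWithin h3
    refine h2 fun i hi => ?_
    by_cases him : i = m
    · exact Or.inl him
    · exact Or.inr (Or.inl (ht i hi him))

/-- the common data of a violation -/
structure Vp180 (T : ℂ → Set (Fin 6)) (x y z : ℂ) (m n : Fin 6) : Prop where
  hy : dist y x = 1
  hz : dist z x = 1
  hyz : dist y z = 1
  mn : m ≠ n
  mx : m ∉ T x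
  nx : n ∉ T x
  my : m ∈ T y
  ny : n ∈ T y
  mz : m ∈ T z
  nz : n ∈ T z
  yo : ∀ i ∈ T y, i ∉ T x → i = m ∨ i = n
  zo : ∀ i ∈ T z, i ∉ T x → i = m ∨ i = n

theorem Vp180.symm (P : Vp180 T x y z m n) : Vp180 T x z y m n :=
  ⟨P.hz, P.hy, by rw [dist_comm]; exact P.hyz, P.mn, P.mx, P.nx, P.mz, P.nz, P.my, P.ny, P.zo, P.yo⟩

theorem Vp180.comm (P : Vp180 T x y z m n) : Vp180 T x y z n m :=
  ⟨P.hy, P.hz, P.hyz, P.mn.symm, P.nx, P.mx, P.ny, P.my, P.nz, P.mz,
    fun i h1 h2 => (P.yo i h1 h2).symm, fun i h1 h2 => (P.zo i h1 h2).symm⟩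

/-- the other colours are in `T x` -/
theorem Vp180.inx (P : Vp180 T x y z m n) {i : Fin 6} (hi : i ∈ T y) (h1 : i ≠ m) (h2 : i ≠ n) :
    i ∈ T x := by
  by_contra h3
  rcases P.yo i hi h3 with h4 | h4
  · exact h1 h4
  · exact h2 h4

/-- `y` a two-pair point, `z` with at most three colours, mixed pairs -/
theorem Vp180.mixed (h : Irr U T) (P : Vp180 T x y z m n) (hx3 : (T x).ncard ≤ 3)
    (hz3 : (T z).ncard ≤ 3) {m' n' : Fin 6} (hp : DPt T y m m' n n') : False := by
  have hm' : m' ∈ T x := P.inx (by rw [hp.pal]; simp) hp.ab.symm hp.bc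
  have hn' : n' ∈ T x := P.inx (by rw [hp.pal]; simp) hp.ad.symm hp.cd.symm
  refine mixed180 h hp (by rw [dist_comm]; exact P.hy) (by rw [dist_comm]; exact P.hyz)
    (by rw [dist_comm]; exact P.hz) hx3 hm' hn' P.mz ?_
  filter_upwards [mem_nhdsWithin_of_mem_nhds (h.nhd y), self_mem_nhdsWithin] with w h1 h2
  obtain ⟨i, hi, hi'⟩ := h.not_sub' (x := z) (y := w) h2 hz3
  have h4 := h1 hi
  rw [hp.pal] at h4
  rcases h4 with rfl | rfl | rfl | h4
  · exact absurd P.mz hi'
  · exact Or.inl hi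
  · exact absurd P.nz hi'
  · rw [mem_singleton_iff] at h4
    subst h4
    exact Or.inr hi

/-- `y` a two-pair point, `z` with at most three colours -/
theorem Vp180.two_three (h : Irr U T) (P : Vp180 T x y z m n) (hx3 : (T x).ncard ≤ 3)
    (hz3 : (T z).ncard ≤ 3) {a b p q : Fin 6} (hp : DPt T y a b p q) (hf : f y = {p, q})
    (hap : ¬ T y \ f y ⊆ T x) : SwV180 T f x y z := by
  have hpal := hp.pal
  have hm := P.my
  have hn := P.ny
  rw [hpal] at hm hn
  -- the connecting pair is not in `T x`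
  have hab : ¬ (a ∈ T x ∧ b ∈ T x) := by
    rintro ⟨h1, h2⟩
    apply hap
    rw [hf, hpal]
    rintro i ⟨hi, hi'⟩
    rcases hi with rfl | rfl | hi
    · exact h1
    · exact h2
    · exact absurd hi hi'
  -- disjointness of `T z` and `T y ∩ T x`
  have hdis : ∀ t ∈ T y, t ∈ T x → t ∉ T z := by
    intro t ht htx htz
    obtain ⟨t', ht', ht'z⟩ := h.not_sub' (x := z) (y := y) P.hyz hz3
    have h1 : t' ≠ m := fun e => ht'z (e ▸ P.mz)
    have h2 : t' ≠ n := fun e => ht'z (e ▸ P.nz)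
    have ht'x := P.inx ht' h1 h2
    refine lineF h (u := z) (p := y) (v := x) (S := T z) (t := t')
      (fun w hw hs => h.not_sub hw hz3 hs) P.hyz P.hy P.hz ht'x fun i hi => ?_
    by_cases him : i = m
    · exact Or.inr (him ▸ P.mz)
    by_cases hin : i = n
    · exact Or.inr (hin ▸ P.nz)
    -- `i` is `t` or `t'`
    have hix := P.inx hi him hin
    by_cases hit : i = t
    · exact Or.inr (hit ▸ htz)
    left
    by_contra hit'
    have htm : t ≠ m := fun e => P.mx (e ▸ htx)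
    have htn : t ≠ n := fun e => P.nx (e ▸ htx)
    have htt' : t ≠ t' := fun e => ht'z (e ▸ htz)
    have h5 : ({m, n, t, t', i} : Finset (Fin 6)).card = 5 := by
      rw [Finset.card_insert_of_notMem, Finset.card_insert_of_notMem,
        Finset.card_insert_of_notMem, Finset.card_pair (Ne.symm hit')]
      · simp only [Finset.mem_insert, Finset.mem_singleton, not_or]
        exact ⟨htt', Ne.symm hit⟩
      · simp only [Finset.mem_insert, Finset.mem_singleton, not_or]
        exact ⟨Ne.symm htn, Ne.symm h2, Ne.symm hin⟩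
      · simp only [Finset.mem_insert, Finset.mem_singleton, not_or]
        exact ⟨P.mn, Ne.symm htm, Ne.symm h1, Ne.symm him⟩
    have h6 : ((({m, n, t, t', i} : Finset (Fin 6)) : Set (Fin 6))).ncard ≤ (T y).ncard := by
      apply Set.ncard_le_ncard _ (Set.toFinite _)
      intro j hj
      simp only [Finset.coe_insert, Finset.coe_singleton, mem_insert_iff, mem_singleton_iff] at hj
      rcases hj with rfl | rfl | rfl | rfl | rfl
      · exact P.my
      · exact P.ny
      · exact ht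
      · exact ht'
      · exact hi
    rw [Set.ncard_coe_finset, h5, hp.ncard] at h6
    omega
  have key : ∀ {m n : Fin 6}, Vp180 T x y z m n → (m = a ∨ m = b) → SwV180 T f x y z := by
    intro m n P hm
    obtain ⟨m', hq, he⟩ : ∃ m', DPt T y m m' p q ∧ (({m, m'} : Set (Fin 6)) = {a, b}) := by
      rcases hm with rfl | rfl
      · exact ⟨b, hp, rfl⟩
      · exact ⟨a, hp.swap12, Set.pair_comm _ _⟩
    have hn := P.ny
    rw [hq.pal] at hn
    rcases hn with h1 | h1 | h1 | h1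
    · exact absurd h1.symm P.mn
    · -- the swap
      subst h1
      have hpx : p ∈ T x := P.inx (by rw [hq.pal]; simp) hq.ac.symm hq.bc.symm
      have hqx : q ∈ T x := P.inx (by rw [hq.pal]; simp) hq.ad.symm hq.bd.symm
      refine ⟨p, q, m, n, hq.swap, hf, hpx, hqx, P.mx, P.nx, P.mz, P.nz, ?_⟩
      exact cl180 h hq.swap (by rw [dist_comm]; exact P.hyz) (by rw [dist_comm]; exact P.hz)
        (by rw [dist_comm]; exact P.hy) hz3 P.mz P.nz fun i hi him hin => by
          by_contra hix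
          rcases P.zo i hi hix with h2 | h2
          · exact him h2
          · exact hin h2
    · exfalso
      subst h1
      exact P.mixed h hx3 hz3 hq
    · exfalso
      rw [mem_singleton_iff] at h1
      subst h1
      exact P.mixed h hx3 hz3 hq.swap34
  rcases hm with h1 | h1 | h1 | h1
  · exact key P (Or.inl h1)
  · exact key P (Or.inr h1)
  all_goals
    rcases hn with h2 | h2 | h2 | h2
    · exact key P.comm (Or.inl h2)
    · exact key P.comm (Or.inr h2)
    all_goals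
      exfalso
      apply hab
      try rw [mem_singleton_iff] at h1
      try rw [mem_singleton_iff] at h2
      have hma : a ≠ m := by
        rw [h1]
        first | exact hp.ac | exact hp.ad
      have hmb : b ≠ m := by
        rw [h1]
        first | exact hp.bc | exact hp.bd
      have hna : a ≠ n := by
        rw [h2]
        first | exact hp.ac | exact hp.ad
      have hnb : b ≠ n := by
        rw [h2]
        first | exact hp.bc | exact hp.bd
      exact ⟨P.inx (by rw [hpal]; simp) hma hna, P.inx (by rw [hpal]; simp) hmb hnb⟩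

/-- `y` and `z` linked two-pair points (STAY) -/
theorem Vp180.stay (h : Irr U T) (P : Vp180 T x y z m n) (hx3 : (T x).ncard ≤ 3)
    {a b p q g : Fin 6} (hnd : [a, b, p, q, g].Nodup) (hy : DPt T y a b p q) (hf : f y = {p, q})
    (hz : DPt T z a p g b) (hfz : f z = {g, b}) (c1 : z ∈ closure (Ex T y {a, b}))
    (c2 : y ∈ closure (Ex T z {a, p})) : SwV180 T f x y z ∨ SwV180 T f x z y := by
  simp only [List.nodup_cons, List.mem_cons, List.not_mem_nil, or_false, not_or, List.nodup_nil,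
    and_true, not_false_eq_true] at hnd
  obtain ⟨⟨hab, hap, haq, hag⟩, ⟨hbp, hbq, hbg⟩, ⟨hpq, hpg⟩, hqg⟩ := hnd
  have hqz : q ∉ T z := by
    rw [hz.pal]
    simp only [mem_insert_iff, mem_singleton_iff, not_or]
    exact ⟨Ne.symm haq, Ne.symm hpq, hqg, Ne.symm hbq⟩
  have hgy : g ∉ T y := by
    rw [hy.pal]
    simp only [mem_insert_iff, mem_singleton_iff, not_or]
    exact ⟨Ne.symm hag, Ne.symm hbg, Ne.symm hpg, Ne.symm hqg⟩
  have hqx : q ∈ T x := P.inx (by rw [hy.pal]; simp) (fun e => hqz (e ▸ P.mz))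
    (fun e => hqz (e ▸ P.nz))
  have hgx : g ∈ T x := P.symm.inx (by rw [hz.pal]; simp) (fun e => hgy (e ▸ P.my))
    (fun e => hgy (e ▸ P.ny))
  have key : ∀ {m n : Fin 6}, Vp180 T x y z m n → (m = a ∨ m = b ∧ n = p) →
      SwV180 T f x y z ∨ SwV180 T f x z y := by
    intro m n P hm
    have hn := P.nz
    rw [hz.pal] at hn
    rcases hm with rfl | ⟨rfl, rfl⟩
    · rcases hn with h1 | h1 | h1 | h1
      · exact absurd h1.symm P.mn
      · -- `{m, n} = {a, p}`
        subst h1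
        right
        have hbx : b ∈ T x := P.inx (by rw [hy.pal]; simp) (Ne.symm hab) hbp
        exact ⟨g, b, m, n, hz.swap, hfz, hgx, hbx, P.mx, P.nx, P.my, P.ny, c2⟩
      · exact absurd (h1 ▸ P.ny) hgy
      · -- `{m, n} = {a, b}`
        rw [mem_singleton_iff] at h1
        subst h1
        left
        have hpx : p ∈ T x := P.inx (by rw [hy.pal]; simp) (Ne.symm hap) (Ne.symm hbp)
        exact ⟨p, q, m, n, hy.swap, hf, hpx, hqx, P.mx, P.nx, P.mz, P.nz, c1⟩
    · -- `{m, n} = {b, p}`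
      exfalso
      have hax : a ∈ T x := P.inx (by rw [hy.pal]; simp) hab hap
      have hz' : DPt T z n a m g := hz.swap12.swap34
      refine mixed180 h (y := z) (z := y) hz' (by rw [dist_comm]; exact P.hz) P.hyz
        (by rw [dist_comm]; exact P.hy) hx3 hax hgx P.ny ?_
      filter_upwards [mem_nhdsWithin_of_mem_nhds (h.nhd z), self_mem_nhdsWithin] with w h1 h2
      by_contra hcon
      push Not at hcon
      have h3 : T w ⊆ {n, m} := by
        intro i hi
        have h4 := h1 hi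
        rw [hz'.pal] at h4
        rcases h4 with h4 | h4 | h4 | h4
        · exact Or.inl h4
        · exact absurd (h4 ▸ hi) hcon.1
        · exact Or.inr h4
        · rw [mem_singleton_iff] at h4
          exact absurd (h4 ▸ hi) hcon.2
      have h4 : T w ⊆ T y := by
        intro i hi
        rcases h3 hi with h5 | h5
        · exact h5 ▸ P.ny
        · rw [mem_singleton_iff] at h5
          exact h5 ▸ P.my
      have h2' : dist w y = 1 := h2
      obtain ⟨e, -, heV, hloc, hew, -, -⟩ := h.arc_of_sub h2' h4 univ_mem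
      rcases h.twoPairs hy e heV hloc (hew.trans h4) with h5 | h5
      · exact hcon.1 (hew (by rw [h5]; simp))
      · have h6 : q ∈ T w := hew (by rw [h5]; simp)
        rcases h3 h6 with h7 | h7
        · exact hpq h7.symm
        · rw [mem_singleton_iff] at h7
          exact hbq h7.symm
  have hm := P.my
  have hn := P.ny
  rw [hy.pal] at hm hn
  have hmq : m ≠ q := fun e => hqz (e ▸ P.mz)
  have hnq : n ≠ q := fun e => hqz (e ▸ P.nz)
  rcases hm with h1 | h1 | h1 | h1
  · exact key P (Or.inl h1)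
  · rcases hn with h2 | h2 | h2 | h2
    · exact key P.comm (Or.inl h2)
    · exact absurd (h1.trans h2.symm) P.mn
    · exact key P (Or.inr ⟨h1, h2⟩)
    · exact absurd h2 hnq
  · rcases hn with h2 | h2 | h2 | h2
    · exact key P.comm (Or.inl h2)
    · exact key P.comm (Or.inr ⟨h2, h1⟩)
    · exact absurd (h1.trans h2.symm) P.mn
    · exact absurd h2 hnq
  · exact absurd h1 hmq

variable (D : DSt U T Z f c R δ₀) (hw : QIW T fun _ _ => False)
  (G : GaugeI758 T (fun _ _ => False) f)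
  (hS : ∀ V l name, ChI nxR802 T (fun _ _ => False) V l name → ∀ j, l j = 2)
  (h3 : (T x).ncard = 3)
  (hap : ∀ z, dist z x = 1 → 4 ≤ (T z).ncard → ¬ T z \ f z ⊆ T x)
include D hw G hS h3 hap

/-- both points have four colours, `y` a two-pair point -/
theorem Vp180.two_four (P : Vp180 T x y z m n) {a b c' d : Fin 6} (hD : DPt T y a b c' d)
    (hz4 : 4 ≤ (T z).ncard) : SwV180 T f x y z ∨ SwV180 T f x z y := by
  have _ := hap
  have h := D.df.irr
  obtain ⟨V, l, name, C, hV⟩ := exists_chIR hw hD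
  have hl := hS V l name C
  obtain ⟨d1, d2, q0, q1, q2, q3, -, -⟩ := C.nb780 hl 0
  obtain ⟨p0, p1, p2, p3, -, -⟩ := C.nm780 hl 0
  have H := C.qf 0
  have hnd := H.nd
  have hnd' : [name 0 0, name 0 1, name 0 2, name 0 3, name 0 5].Nodup ∧
      [name 0 0, name 0 1, name 0 3, name 0 2, name 0 4].Nodup := by
    simp only [List.nodup_cons, List.mem_cons, List.not_mem_nil, or_false, not_or,
      List.nodup_nil, and_true, not_false_eq_true] at hnd ⊢
    obtain ⟨⟨h01, h02, h03, h04, h05⟩, ⟨h12, h13, h14, h15⟩, ⟨h23, h24, h25⟩, ⟨h34, h35⟩, h45⟩ :=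
      hnd
    exact ⟨⟨⟨h01, h02, h03, h05⟩, ⟨h12, h13, h15⟩, ⟨h23, h25⟩, h35⟩,
      ⟨h01, h03, h02, h04⟩, ⟨h13, h12, h14⟩, ⟨Ne.symm h23, h34⟩, h24⟩
  have hzy : dist z (V 0) = 1 := by rw [hV, dist_comm]; exact P.hyz
  have hf0 := G.qi H
  have e1 : (0 : ℤ) + 1 = 1 := by norm_num
  have e2 : (0 : ℤ) - 1 = -1 := by norm_num
  rcases H.ord z hzy hz4 with h1 | h1 | h1
  · have H1 := C.qf (0 + 1)
    have hf1 := G.qi H1
    rw [p2, p3] at hf1
    have c2 := H1.toQI0.mem2 h
    rw [p0, p1, show (0 : ℤ) + 1 - 1 = 0 by norm_num] at c2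
    subst h1
    subst hV
    exact P.stay h h3.le hnd'.1 H.dpt hf0 d2 hf1 (H.toQI0.mem1 h) c2
  · have H1 := C.qf (0 - 1)
    have hf1 := G.qi H1
    rw [q2, q3, Set.pair_comm] at hf1
    have c2 := H1.toQI0.mem1 h
    rw [q0, q1, show (0 : ℤ) - 1 + 1 = 0 by norm_num] at c2
    subst h1
    subst hV
    exact P.stay h h3.le hnd'.2 H.dpt.swap34 (by rw [hf0, Set.pair_comm]) d1.swap34 hf1
      (H.toQI0.mem2 h) c2
  · exact absurd h1 id

/-- a violation with a point of four colours -/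
theorem Vp180.four (P : Vp180 T x y z m n) (hfy : ¬ (T x)ᶜ ⊆ T y) (hfz : ¬ (T x)ᶜ ⊆ T z)
    (hy4 : 4 ≤ (T y).ncard) : SwV180 T f x y z ∨ SwV180 T f x z y := by
  have h := D.df.irr
  have hfull : ∀ w, dist w x = 1 → ¬ T w ⊆ T x := fun w hw' hs => h.not_sub hw' h3.le hs
  have hsub : ∀ {y z : ℂ}, Vp180 T x y z m n → T y \ T x ⊆ T z := by
    rintro y z P i ⟨hi, hix⟩
    rcases P.yo i hi hix with h1 | h1
    · exact h1 ▸ P.mz
    · exact h1 ▸ P.nz
  -- a harmless point: a colour of the arc pair in `T x`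
  have fa : ∀ {y : ℂ} {A : Set (Fin 6)}, dist y x = 1 → ¬ (T x)ᶜ ⊆ T y → Six.Harm T y A →
      ∃ a ∈ A, a ∈ T x := by
    intro y A hy hfy hA
    by_contra hcon
    push Not at hcon
    have hy4 : 4 ≤ (T y).ncard := hA.card.ge
    obtain ⟨i, ⟨hi, hif⟩, hix⟩ := Set.not_subset.1 (hap y hy hy4)
    rw [D.ch.harm y A hA] at hif
    obtain ⟨u, v, huv, hAe⟩ := Set.ncard_eq_two.1 hA.cardA
    have hu : u ∈ A := by rw [hAe]; simp
    have hv : v ∈ A := by rw [hAe]; simp
    have e := compl_sub h3 (hcon u hu) (hcon v hv) hix huv (fun e => hif (e ▸ hu))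
      fun e => hif (e ▸ hv)
    apply hfy
    rw [e]
    rintro j (rfl | rfl | rfl)
    · exact hA.sub hu
    · exact hA.sub hv
    · exact hi
  rcases D.df.harm_or hy4 with ⟨A, hA⟩ | ⟨a, b, c', d, hD⟩
  · exfalso
    obtain ⟨a, haA, hax⟩ := fa P.hy hfy hA
    by_cases hz4 : 4 ≤ (T z).ncard
    · rcases D.df.harm_or hz4 with ⟨B, hB⟩ | ⟨a', b', c', d, hD⟩
      · have B0 : Bs U T x (T x) := ⟨h, h3, Subset.rfl, hfull, Or.inl rfl⟩
        exact B0.ruleZZ P.hz P.hy P.hyz hB hA (D.df.ev_harm180 hB) (D.df.ev_harm180 hA)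
          (fa P.hz hfz hB) ⟨a, haA, hax⟩ hfz (hsub P)
      · obtain ⟨a', b', m', n', e', g', V1, V2, hq⟩ := hw.qf hD
        rcases hq.ord y P.hyz hy4 with h1 | h1 | h1
        · obtain ⟨g1, hg | hg⟩ := hq.lk1
          · exact not_harm_of_dpt (h1 ▸ hA) hg
          · exact not_harm_of_dpt (h1 ▸ hA) hg
        · obtain ⟨g1, hg | hg⟩ := hq.lk2
          · exact not_harm_of_dpt (h1 ▸ hA) hg
          · exact not_harm_of_dpt (h1 ▸ hA) hg
        · exact h1
    · push Not at hz4
      exact ruleFrom h h3 Subset.rfl hfull P.hz P.hy (by rw [dist_comm]; exact P.hyz)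
        (by omega) hA.sub hA.h1 haA hax hfz (hsub P)
  · by_cases hz4 : 4 ≤ (T z).ncard
    · exact Vp180.two_four D hw G hS h3 hap P hD hz4
    · push Not at hz4
      left
      obtain ⟨a', b', m', n', e', g', V1, V2, hq⟩ := hw.qf hD
      exact P.two_three h h3.le (by omega) hq.dpt (G.qi hq) (hap y P.hy hy4)

/-- **A violation of the sixty degree rule is a swap.** -/
theorem viol180 (hy : dist y x = 1) (hz : dist z x = 1) (hyz : dist y z = 1)
    (hfy : ¬ (T x)ᶜ ⊆ T y) (hfz : ¬ (T x)ᶜ ⊆ T z) (hsub : T y \ T x ⊆ T z) :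
    SwV180 T f x y z ∨ SwV180 T f x z y := by
  have h := D.df.irr
  have hfull : ∀ w, dist w x = 1 → ¬ T w ⊆ T x := fun w hw' hs => h.not_sub hw' h3.le hs
  obtain ⟨m, n, hm, hn, hmx, hnx, hmn⟩ := two_out h hfull hy hz hyz hsub
  have hout : ∀ {w : ℂ}, m ∈ T w → n ∈ T w → ¬ (T x)ᶜ ⊆ T w → ∀ i ∈ T w, i ∉ T x →
      i = m ∨ i = n := by
    intro w h1 h2 h4 i hi hix
    by_contra hcon
    push Not at hcon
    apply h4
    rw [compl_sub h3 hmx hnx hix hmn (Ne.symm hcon.1) (Ne.symm hcon.2)]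
    rintro j (rfl | rfl | rfl) <;> assumption
  have hmz := hsub ⟨hm, hmx⟩
  have hnz := hsub ⟨hn, hnx⟩
  have P : Vp180 T x y z m n :=
    ⟨hy, hz, hyz, hmn, hmx, hnx, hm, hn, hmz, hnz, hout hm hn hfy, hout hmz hnz hfz⟩
  by_cases hy4 : 4 ≤ (T y).ncard
  · exact Vp180.four D hw G hS h3 hap P hfy hfz hy4
  · by_cases hz4 : 4 ≤ (T z).ncard
    · exact (Vp180.four D hw G hS h3 hap P.symm hfz hfy hz4).symm
    · push Not at hy4 hz4
      exact absurd hsub (rule3 h Subset.rfl hfull hy hz hyz (by omega) (by omega))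

omit hap hS in
/-- **At most one swap** -/
theorem swap_unique180 {W1 W2 : ℂ} {s p g c1 d1 c2 d2 : Fin 6} (D1 : DPt T W1 s p c1 d1)
    (D2 : DPt T W2 s g c2 d2) (k1 : x ∈ closure (Ex T W1 {s, p}))
    (k2 : x ∈ closure (Ex T W2 {s, g})) (hne : W1 ≠ W2) (hne2 : W1 + W2 ≠ 2 * x) (hpg : p ≠ g)
    (hT : T x = {s, p, g}) (t1 : ∀ y ∈ closure (Ex T W1 {c1, d1}), 1 < dist y x)
    (t2 : ∀ y ∈ closure (Ex T W2 {c2, d2}), 1 < dist y x) {V y V' y' : ℂ}
    (hS : SwV180 T f x V y) (hS' : SwV180 T f x V' y') (hV : dist V x = 1) (hy : dist y x = 1)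
    (hV' : dist V' x = 1) (hy' : dist y' x = 1) : V = V' ∧ y = y' := by
  have h := D.df.irr
  have hx1 : dist x W1 = 1 := dist_of_closure k1
  have hx2 : dist x W2 = 1 := dist_of_closure k2
  have f1 : ∃ᶠ w in 𝓝 x, T w = {s, p} :=
    (mem_closure_iff_frequently.1 k1).mono fun w hw => ex_self hw
  have f2 : ∃ᶠ w in 𝓝 x, T w = {s, g} :=
    (mem_closure_iff_frequently.1 k2).mono fun w hw => ex_self hw
  have f3 := h.pair_near553 (h.sides D1 hx1) (h.sides D2 hx2) hx1 hx2 hne hne2 hpg hT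
  have hn2 : ∀ i j : Fin 6, T x ≠ {i, j} := by
    intro i j e
    have := (Set.ncard_insert_le i ({j} : Set (Fin 6))).trans (by simp : _ ≤ 2)
    rw [← e, h3] at this
    omega
  -- no swap at `W1`, `W2`
  have no : ∀ {W V y : ℂ} {a b c' d a' b' m n : Fin 6}, DPt T W a b c' d →
      (∀ y ∈ closure (Ex T W {c', d}), 1 < dist y x) → dist x W = 1 →
      (∃ᶠ w in 𝓝 x, T w = {a, b}) → DPt T V a' b' m n → dist V x = 1 → dist y x = 1 →
      y ∈ closure (Ex T V {m, n}) → (a' = a ∧ b' = b ∨ a' = b ∧ b' = a) → False := by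
    intro W V y a b c' d a' b' m n hW ht hxW hfr hV hVx hyx hcl hab
    have hV2 : DPt T V a b m n := by
      rcases hab with ⟨rfl, rfl⟩ | ⟨rfl, rfl⟩
      · exact hV
      · exact hV.swap12
    have e := sameA180 h hV2 hW (by rw [dist_comm]; exact hVx) hxW (hn2 _ _) hfr
    subst e
    have e2 : ({m, n} : Set (Fin 6)) = {c', d} := by
      rcases h.pairs758 hW hV2 with h4 | h4
      · exact h4.2
      · exfalso
        have h5 : a ∈ ({c', d} : Set (Fin 6)) := by rw [← h4.1]; simp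
        rcases h5 with h5 | h5
        · exact hW.ac h5
        · exact hW.ad h5
    rw [e2] at hcl
    have := ht y hcl
    linarith
  have norm : ∀ {V y : ℂ}, SwV180 T f x V y → dist V x = 1 → dist y x = 1 →
      ∃ m n : Fin 6, DPt T V p g m n ∧ f V = {p, g} ∧ y ∈ closure (Ex T V {m, n}) := by
    rintro V y ⟨a, b, m, n, hV, hf, ha, hb, -, -, -, -, hcl⟩ hVx hyx
    rw [hT] at ha hb
    have hab := hV.ab
    rcases ha with rfl | rfl | ha
    · rcases hb with rfl | rfl | hb
      · exact absurd rfl hab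
      · exact (no D1 t1 hx1 f1 hV hVx hyx hcl (Or.inl ⟨rfl, rfl⟩)).elim
      · rw [mem_singleton_iff] at hb
        subst hb
        exact (no D2 t2 hx2 f2 hV hVx hyx hcl (Or.inl ⟨rfl, rfl⟩)).elim
    · rcases hb with rfl | rfl | hb
      · exact (no D1 t1 hx1 f1 hV hVx hyx hcl (Or.inr ⟨rfl, rfl⟩)).elim
      · exact absurd rfl hab
      · rw [mem_singleton_iff] at hb
        subst hb
        exact ⟨m, n, hV, hf, hcl⟩
    · rw [mem_singleton_iff] at ha
      subst ha
      rcases hb with rfl | rfl | hb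
      · exact (no D2 t2 hx2 f2 hV hVx hyx hcl (Or.inr ⟨rfl, rfl⟩)).elim
      · exact ⟨m, n, hV.swap12, by rw [hf, Set.pair_comm], hcl⟩
      · rw [mem_singleton_iff] at hb
        exact absurd hb.symm hab
  obtain ⟨m, n, E1, E2, E3⟩ := norm hS hV hy
  obtain ⟨m', n', E1', E2', E3'⟩ := norm hS' hV' hy'
  have e := sameA180 h E1 E1' (by rw [dist_comm]; exact hV) (by rw [dist_comm]; exact hV')
    (hn2 _ _) f3
  subst e
  refine ⟨rfl, ?_⟩
  have e2 : ({m', n'} : Set (Fin 6)) = {m, n} := by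
    rcases h.pairs758 E1 E1' with h4 | h4
    · exact h4.2
    · exfalso
      have h5 : p ∈ ({m, n} : Set (Fin 6)) := by rw [← h4.1]; simp
      rcases h5 with h5 | h5
      · exact E1.ac h5
      · exact E1.ad h5
  rw [e2] at E3'
  obtain ⟨a0, b0, m0, n0, e0, g0, V1, V2, hq⟩ := hw.qf E1
  have e3 : ({a0, b0} : Set (Fin 6)) = {m, n} := by
    have h6 := G.qi hq
    rw [E2] at h6
    rcases h.pairs758 E1 hq.dpt with h4 | h4
    · exfalso
      have h5 : a0 ∈ ({m0, n0} : Set (Fin 6)) := by rw [← h6, ← h4.1]; simp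
      rcases h5 with h5 | h5
      · exact hq.dpt.ac h5
      · exact hq.dpt.ad h5
    · exact h4.1
  rw [← e3] at E3 E3'
  have hd := hq.toQI0.diam h E3 E3'
  by_contra hyy
  have hyV : dist y V = 1 := dist_of_closure E3
  have hyV' : dist y' V = 1 := dist_of_closure E3'
  have hVx : V ≠ x := by
    rintro rfl
    rw [dist_self] at hV
    norm_num at hV
  have e4 := two_circ180 hyV hy hyV' hy' hVx hyy
  have r1 := sq_one180 hyV'
  have r2 := sq_one180 hy'
  have r3 := sq_one180 hV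
  have r4 : dist y y' ^ 2 = (y.re - y'.re) ^ 2 + (y.im - y'.im) ^ 2 := by
    rw [dist_eq_norm, Complex.sq_norm, Complex.normSq_apply]
    simp only [Complex.sub_re, Complex.sub_im]
    ring
  have r5 : (y.re - y'.re) ^ 2 + (y.im - y'.im) ^ 2 = 3 := by
    rw [e4]
    simp only [Complex.sub_re, Complex.sub_im, Complex.add_re, Complex.add_im]
    linear_combination 2 * r1 + 2 * r2 - r3
  have hd0 : 0 ≤ dist y y' := dist_nonneg
  nlinarith

end Vale.Agent.P032.Six
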